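import Mathlib

namespace Vale.Agent.P070

universe u v

/-- `π` is an irreducible representation: nonzero, and no closed invariant subspace other than
`0` and `H`. -/
def IsIrredRep {A : Type} [NonUnitalCStarAlgebra A]
    {H : Type u} [NormedAddCommGroup H] [InnerProductSpace ℂ H] [CompleteSpace H]
    (π : A →⋆ₙₐ[ℂ] (H →L[ℂ] H)) : Prop :=
  π ≠ 0 ∧ ∀ K : Submodule ℂ H, IsClosed (K : Set H) → (∀ a : A, ∀ x ∈ K, π a x ∈ K) →
    K = ⊥ ∨ K = ⊤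

/-- unitary equivalence of two representations -/
def UnitarilyEquiv {A : Type} [NonUnitalCStarAlgebra A]
    {H₁ : Type u} [NormedAddCommGroup H₁] [InnerProductSpace ℂ H₁] [CompleteSpace H₁]
    {H₂ : Type v} [NormedAddCommGroup H₂] [InnerProductSpace ℂ H₂] [CompleteSpace H₂]
    (π₁ : A →⋆ₙₐ[ℂ] (H₁ →L[ℂ] H₁)) (π₂ : A →⋆ₙₐ[ℂ] (H₂ →L[ℂ] H₂)) : Prop :=
  ∃ U : H₁ ≃ₗᵢ[ℂ] H₂, ∀ (a : A) (x : H₁), U (π₁ a x) = π₂ a (U x)

/-- property (N): `A ≠ 0` and any two irreducible representations are unitarily equivalent -/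
def PropertyN (A : Type) [NonUnitalCStarAlgebra A] : Prop :=
  Nontrivial A ∧
    ∀ (H₁ : Type u) [NormedAddCommGroup H₁] [InnerProductSpace ℂ H₁] [CompleteSpace H₁]
      (H₂ : Type v) [NormedAddCommGroup H₂] [InnerProductSpace ℂ H₂] [CompleteSpace H₂]
      (π₁ : A →⋆ₙₐ[ℂ] (H₁ →L[ℂ] H₁)) (π₂ : A →⋆ₙₐ[ℂ] (H₂ →L[ℂ] H₂)),
      IsIrredRep π₁ → IsIrredRep π₂ → UnitarilyEquiv π₁ π₂

/-- `A` is star-isomorphic to the algebra `K(H)` of compact operators on `H` -/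
def IsoCompacts (A : Type) [NonUnitalCStarAlgebra A]
    (H : Type u) [NormedAddCommGroup H] [InnerProductSpace ℂ H] [CompleteSpace H] : Prop :=
  ∃ φ : A →⋆ₙₐ[ℂ] (H →L[ℂ] H),
    Function.Injective φ ∧ Set.range φ = {T : H →L[ℂ] H | IsCompactOperator T}

end Vale.Agent.P070
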