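import Mathlib

/-!
Schur lemma and the (self-adjoint) density theorem for a topologically irreducible
unital star representation of a star algebra on a Hilbert space.
-/

open scoped InnerProductSpace ComplexConjugate
open Filter Topology

set_option linter.unusedSectionVars false

namespace Vale.Agent.P070

variable {D : Type*} [Ring D] [StarRing D] [Algebra ℂ D] [StarModule ℂ D]
variable {H : Type*} [NormedAddCommGroup H] [InnerProductSpace ℂ H] [CompleteSpace H]

/-- topological irreducibility of a unital star representation (without the nonzero clause) -/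
def Irr (σ : D →⋆ₐ[ℂ] (H →L[ℂ] H)) : Prop :=
  ∀ K : Submodule ℂ H, IsClosed (K : Set H) → (∀ a, ∀ x ∈ K, σ a x ∈ K) → K = ⊥ ∨ K = ⊤

theorem inner_rep_left (σ : D →⋆ₐ[ℂ] (H →L[ℂ] H)) (a : D) (x y : H) :
    ⟪σ a x, y⟫_ℂ = ⟪x, σ (star a) y⟫_ℂ := by
  rw [map_star, ContinuousLinearMap.star_eq_adjoint, ContinuousLinearMap.adjoint_inner_right]

theorem inner_rep_right (σ : D →⋆ₐ[ℂ] (H →L[ℂ] H)) (a : D) (x y : H) :
    ⟪x, σ a y⟫_ℂ = ⟪σ (star a) x, y⟫_ℂ := by
  rw [inner_rep_left, star_star]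

theorem rep_mul (σ : D →⋆ₐ[ℂ] (H →L[ℂ] H)) (a b : D) (x : H) :
    σ (a * b) x = σ a (σ b x) := by
  rw [map_mul]; rfl

theorem schur_sa {σ : D →⋆ₐ[ℂ] (H →L[ℂ] H)} (hσ : Irr σ) {T : H →L[ℂ] H}
    (hT : IsSelfAdjoint T) (hc : ∀ a, Commute T (σ a)) : ∃ c : ℂ, T = c • 1 := by
  by_cases hs : (spectrum ℝ T).Subsingleton
  · rcases hs.eq_empty_or_singleton with h | ⟨r, h⟩
    · refine ⟨0, ?_⟩
      have := CFC.eq_algebraMap_of_spectrum_subset_singleton T (0 : ℝ) (by simp [h]) hT
      simpa using this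
    · refine ⟨r, ?_⟩
      have := CFC.eq_algebraMap_of_spectrum_subset_singleton T r (by simp [h]) hT
      rw [this, Algebra.algebraMap_eq_smul_one]
      simp
  · exfalso
    rw [Set.not_subsingleton_iff] at hs
    obtain ⟨l, hl, m, hm, hlm⟩ := hs.exists_lt
    set c := (l + m) / 2 with hcdef
    let f : ℝ → ℝ := fun x => max (x - c) 0
    let g : ℝ → ℝ := fun x => max (c - x) 0
    have hf : Continuous f := by fun_prop
    have hg : Continuous g := by fun_prop
    have hfg : cfc g T * cfc f T = 0 := by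
      rw [← cfc_mul g f T]
      have : (fun x => g x * f x) = fun _ => (0 : ℝ) := by
        funext x
        rcases le_total x c with h | h
        · simp [f, max_eq_right (sub_nonpos.mpr h)]
        · simp [g, max_eq_right (sub_nonpos.mpr h)]
      rw [this]; exact cfc_const_zero ℝ T
    have hf0 : cfc f T ≠ 0 := by
      intro h
      rw [← cfc_const_zero ℝ T] at h
      have := eqOn_of_cfc_eq_cfc h hf.continuousOn continuousOn_const hT hm
      simp only [f] at this
      have h2 : m - c ≤ 0 := by rw [← this]; exact le_max_left _ _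
      linarith
    have hg0 : cfc g T ≠ 0 := by
      intro h
      rw [← cfc_const_zero ℝ T] at h
      have := eqOn_of_cfc_eq_cfc h hg.continuousOn continuousOn_const hT hl
      simp only [g] at this
      have h2 : c - l ≤ 0 := by rw [← this]; exact le_max_left _ _
      linarith
    have hK := hσ (LinearMap.ker (cfc g T : H →L[ℂ] H).toLinearMap)
      (ContinuousLinearMap.isClosed_ker _) (by
        intro a x hx
        have h1 : Commute (cfc g T) (σ a) := (hc a).cfc_real g
        have h2 : cfc g T x = 0 := hx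
        show cfc g T (σ a x) = 0
        have := congrArg (fun S : H →L[ℂ] H => S x) h1.eq
        simp only [mul_apply_eq_comp] at this
        rw [this, h2, map_zero])
    rcases hK with hK | hK
    · apply hf0
      ext x
      have : cfc f T x ∈ LinearMap.ker (cfc g T : H →L[ℂ] H).toLinearMap := by
        show cfc g T (cfc f T x) = 0
        have := congrArg (fun S : H →L[ℂ] H => S x) hfg
        simpa using this
      rw [hK] at this
      simpa using this
    · apply hg0
      ext x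
      have : x ∈ LinearMap.ker (cfc g T : H →L[ℂ] H).toLinearMap := by rw [hK]; trivial
      simpa using this

theorem schur {σ : D →⋆ₐ[ℂ] (H →L[ℂ] H)} (hσ : Irr σ) {T : H →L[ℂ] H}
    (hc : ∀ a, Commute T (σ a)) : ∃ c : ℂ, T = c • 1 := by
  have hs : ∀ a, Commute (star T) (σ a) := by
    intro a
    have := (hc (star a)).star_star
    rwa [map_star, star_star] at this
  obtain ⟨c₁, h₁⟩ := schur_sa hσ (T := T + star T) (IsSelfAdjoint.add_star_self T)
    (fun a => (hc a).add_left (hs a))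
  obtain ⟨c₂, h₂⟩ := schur_sa hσ (T := Complex.I • (T - star T))
    (by simp [IsSelfAdjoint, star_smul, smul_sub]; abel)
    (fun a => ((hc a).sub_left (hs a)).smul_left _)
  refine ⟨(c₁ - Complex.I * c₂) / 2, ?_⟩
  have h3 : T - star T = (-Complex.I * c₂) • (1 : H →L[ℂ] H) := by
    rw [mul_smul, ← h₂, smul_smul]; simp
  have h4 : T = (1 / 2 : ℂ) • ((T + star T) + (T - star T)) := by
    module
  rw [h4, h₁, h3]
  module

/-- Jacobson type density theorem -/
theorem density {σ : D →⋆ₐ[ℂ] (H →L[ℂ] H)} (hσ : Irr σ) {ι : Type*} [Fintype ι]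
    (ζ : ι → H) (h : H →L[ℂ] H) {ε : ℝ} (hε : 0 < ε) :
    ∃ a : D, ∀ i, ‖σ a (ζ i) - h (ζ i)‖ < ε := by
  classical
  let E := PiLp 2 (fun _ : ι => H)
  let F : D →ₗ[ℂ] E :=
    { toFun := fun a => WithLp.toLp 2 (fun i => σ a (ζ i))
      map_add' := by intro a b; ext i; simp [E]
      map_smul' := by intro c a; ext i; simp [E] }
  let K : Submodule ℂ E := (LinearMap.range F).topologicalClosure
  have : CompleteSpace K := (Submodule.isClosed_topologicalClosure _).completeSpace_coe
  let G : (H →L[ℂ] H) → E →L[ℂ] E := fun S =>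
    (PiLp.continuousLinearEquiv 2 ℂ (fun _ : ι => H)).symm.toContinuousLinearMap ∘L
      (ContinuousLinearMap.pi fun i => S ∘L PiLp.proj 2 (fun _ : ι => H) i)
  have hG : ∀ S v i, G S v i = S (v i) := fun S v i => rfl
  have hKinv : ∀ a, ∀ v ∈ K, G (σ a) v ∈ K := by
    intro a v hv
    have h1 : Set.MapsTo (G (σ a)) (LinearMap.range F : Set E) (LinearMap.range F : Set E) := by
      rintro _ ⟨b, rfl⟩
      refine ⟨a * b, ?_⟩
      ext i
      rw [hG]
      exact rep_mul σ a b (ζ i)
    exact h1.closure (G (σ a)).continuous hv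
  have hadj : ∀ a (v w : E), ⟪G (σ a) v, w⟫_ℂ = ⟪v, G (σ (star a)) w⟫_ℂ := by
    intro a v w
    simp only [E, PiLp.inner_apply]
    refine Finset.sum_congr rfl fun i _ => ?_
    rw [hG, hG, inner_rep_left]
  have hKperp : ∀ a, ∀ v ∈ Kᗮ, G (σ a) v ∈ Kᗮ := by
    intro a v hv
    rw [Submodule.mem_orthogonal'] at hv ⊢
    intro u hu
    rw [hadj]
    exact hv _ (hKinv _ _ hu)
  have hPc : ∀ a v, K.starProjection (G (σ a) v) = G (σ a) (K.starProjection v) := by
    intro a v
    apply Submodule.eq_starProjection_of_mem_orthogonal (hKinv _ _ (K.starProjection_apply_mem v))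
    rw [← map_sub]
    exact hKperp _ _ (K.sub_starProjection_mem_orthogonal v)
  let sg : ι → H →L[ℂ] E := fun j =>
    (PiLp.continuousLinearEquiv 2 ℂ (fun _ : ι => H)).symm.toContinuousLinearMap ∘L
      ContinuousLinearMap.single ℂ (fun _ : ι => H) j
  have hsg : ∀ j x i, sg j x i = (Pi.single j x : ι → H) i := fun j x i => rfl
  have hGsg : ∀ S j x, G S (sg j x) = sg j (S x) := by
    intro S j x
    ext i
    rw [hG, hsg, hsg]
    by_cases hij : i = j
    · subst hij; simp
    · simp [hij]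
  have hsum : ∀ v : E, v = ∑ j, sg j (v j) := by
    intro v
    ext i
    rw [WithLp.ofLp_sum, Finset.sum_apply]
    simp only [hsg]
    rw [Finset.sum_eq_single i] <;> simp +contextual [eq_comm]
  have hP : ∀ i j, ∃ c : ℂ, ∀ x, K.starProjection (sg j x) i = c • x := by
    intro i j
    obtain ⟨c, hc⟩ := schur hσ
      (T := PiLp.proj 2 (fun _ : ι => H) i ∘L K.starProjection ∘L sg j) (by
        intro a
        ext x
        show K.starProjection (sg j (σ a x)) i = σ a (K.starProjection (sg j x) i)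
        rw [← hGsg, hPc, hG])
    refine ⟨c, fun x => ?_⟩
    have := congrArg (fun S : H →L[ℂ] H => S x) hc
    simpa using this
  choose c hc using hP
  have hPv : ∀ (v : E) i, K.starProjection v i = ∑ j, c i j • v j := by
    intro v i
    conv_lhs => rw [hsum v]
    rw [map_sum, WithLp.ofLp_sum, Finset.sum_apply]
    simp only [hc]
  have hζK : F 1 ∈ K := Submodule.le_topologicalClosure _ ⟨1, rfl⟩
  have hF1 : ∀ i, F 1 i = ζ i := by
    intro i
    show σ 1 (ζ i) = ζ i
    simp
  have hv : G h (F 1) ∈ K := by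
    rw [← Submodule.starProjection_eq_self_iff]
    ext i
    rw [hPv, hG]
    conv_rhs => rw [← Submodule.starProjection_eq_self_iff.mpr hζK, hPv, map_sum]
    simp only [hG, map_smul]
  have hv' : G h (F 1) ∈ closure (LinearMap.range F : Set E) := hv
  rw [Metric.mem_closure_iff] at hv'
  obtain ⟨_, ⟨a, rfl⟩, ha⟩ := hv' ε hε
  refine ⟨a, fun i => ?_⟩
  rw [dist_comm, dist_eq_norm] at ha
  refine lt_of_le_of_lt ?_ ha
  have := PiLp.norm_apply_le (F a - G h (F 1)) i
  rw [PiLp.sub_apply, hG, hF1] at this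
  exact this

/-- self-adjoint density theorem -/
theorem density_sa {σ : D →⋆ₐ[ℂ] (H →L[ℂ] H)} (hσ : Irr σ) {ι : Type*} [Fintype ι]
    (ζ : ι → H) (h : H →L[ℂ] H) (hh : IsSelfAdjoint h) {ε : ℝ} (hε : 0 < ε) :
    ∃ a : D, IsSelfAdjoint a ∧ ∀ i, ‖σ a (ζ i) - h (ζ i)‖ < ε := by
  classical
  let E := PiLp 2 (fun _ : ι => H)
  let F : D → E := fun a => WithLp.toLp 2 (fun i => σ a (ζ i))
  let V : Set E := F '' {a | IsSelfAdjoint a}
  let v : E := WithLp.toLp 2 (fun i => h (ζ i))
  have hVconv : Convex ℝ V := by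
    rintro _ ⟨a, ha, rfl⟩ _ ⟨b, hb, rfl⟩ s t _ _ _
    refine ⟨(s : ℂ) • a + (t : ℂ) • b, ?_, ?_⟩
    · have ha' : star a = a := ha
      have hb' : star b = b := hb
      show star _ = _
      simp [star_smul, ha', hb']
    · ext i
      show σ ((s : ℂ) • a + (t : ℂ) • b) (ζ i) = s • σ a (ζ i) + t • σ b (ζ i)
      rw [map_add, map_smul, map_smul]
      simp
  have hv : v ∈ closure V := by
    by_contra hn
    obtain ⟨f, u, hfu, hV⟩ :=
      RCLike.geometric_hahn_banach_point_closed (𝕜 := ℂ) hVconv.closure isClosed_closure hn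
    obtain ⟨θ, rfl⟩ := (InnerProductSpace.toDual ℂ E).surjective f
    simp only [InnerProductSpace.toDual_apply_apply, RCLike.re_to_complex] at hfu hV
    have hFs : ∀ (r : ℝ) a, F ((r : ℂ) • a) = (r : ℂ) • F a := by
      intro r a; ext i
      show σ ((r : ℂ) • a) (ζ i) = (r : ℂ) • σ a (ζ i)
      rw [map_smul]; rfl
    have h0 : ∀ a, IsSelfAdjoint a → (⟪θ, F a⟫_ℂ).re = 0 := by
      intro a ha
      by_contra hne
      have h1 := hV (F (((u / (⟪θ, F a⟫_ℂ).re : ℝ) : ℂ) • a)) (subset_closure ⟨_, by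
        have ha' : star a = a := ha
        show star _ = _
        rw [star_smul, ha', Complex.star_def, Complex.conj_ofReal], rfl⟩)
      rw [hFs, inner_smul_right, Complex.re_ofReal_mul, div_mul_cancel₀ _ hne] at h1
      exact lt_irrefl _ h1
    have hu : u < 0 := by
      have := hV (F 0) (subset_closure ⟨0, IsSelfAdjoint.zero D, rfl⟩)
      rwa [h0 0 (IsSelfAdjoint.zero D)] at this
    set δ : ℝ := -(⟪θ, v⟫_ℂ).re with hδ
    have hδ0 : 0 < δ := by linarith
    set C : ℝ := ∑ i, (‖θ i‖ + ‖ζ i‖) + 1 with hC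
    have hC0 : 0 < C := by positivity
    obtain ⟨b, hb⟩ := density hσ (ι := ι ⊕ ι) (Sum.elim ζ (fun i => θ i)) h
      (ε := δ / C) (by positivity)
    have h1 := h0 (b + star b) (IsSelfAdjoint.add_star_self b)
    have h2 : (⟪θ, F (b + star b)⟫_ℂ).re - 2 * (⟪θ, v⟫_ℂ).re =
        ∑ i, ((⟪θ i, σ b (ζ i) - h (ζ i)⟫_ℂ).re + (⟪σ b (θ i) - h (θ i), ζ i⟫_ℂ).re) := by
      simp only [E, PiLp.inner_apply, F, v, Complex.re_sum, Finset.mul_sum,
        ← Finset.sum_sub_distrib]
      refine Finset.sum_congr rfl fun i _ => ?_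
      have e1 : ⟪h (θ i), ζ i⟫_ℂ = ⟪θ i, h (ζ i)⟫_ℂ := hh.isSymmetric _ _
      rw [inner_sub_right, inner_sub_left, e1, inner_rep_left, map_add,
        add_apply, inner_add_right]
      simp only [Complex.add_re, Complex.sub_re]
      ring
    have h3 : ∑ i, ((⟪θ i, σ b (ζ i) - h (ζ i)⟫_ℂ).re + (⟪σ b (θ i) - h (θ i), ζ i⟫_ℂ).re) ≤
        ∑ i, (‖θ i‖ + ‖ζ i‖) * (δ / C) := by
      refine Finset.sum_le_sum fun i _ => ?_
      have a1 := (Complex.re_le_norm _).trans
        (norm_inner_le_norm (𝕜 := ℂ) (θ i) (σ b (ζ i) - h (ζ i)))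
      have a2 := (Complex.re_le_norm _).trans
        (norm_inner_le_norm (𝕜 := ℂ) (σ b (θ i) - h (θ i)) (ζ i))
      have b1 : ‖σ b (ζ i) - h (ζ i)‖ < δ / C := hb (Sum.inl i)
      have b2 : ‖σ b (θ i) - h (θ i)‖ < δ / C := hb (Sum.inr i)
      have c1 := mul_le_mul_of_nonneg_left b1.le (norm_nonneg (θ i))
      have c2 := mul_le_mul_of_nonneg_right b2.le (norm_nonneg (ζ i))
      nlinarith
    rw [← Finset.sum_mul] at h3
    have h4 : (∑ i, (‖θ i‖ + ‖ζ i‖)) * (δ / C) ≤ δ := by
      have : (∑ i, (‖θ i‖ + ‖ζ i‖)) ≤ C := by linarith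
      calc _ ≤ C * (δ / C) := mul_le_mul_of_nonneg_right this (by positivity)
        _ = δ := by field_simp
    linarith
  rw [Metric.mem_closure_iff] at hv
  obtain ⟨_, ⟨a, hsa, rfl⟩, ha⟩ := hv ε hε
  refine ⟨a, hsa, fun i => ?_⟩
  rw [dist_comm, dist_eq_norm] at ha
  refine lt_of_le_of_lt ?_ ha
  exact PiLp.norm_apply_le (F a - v) i

end Vale.Agent.P070
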