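import Vale.Agent.P070.Step

/-!
Iteration of the step and the limit unitary.
-/

open scoped InnerProductSpace ComplexConjugate
open Filter Topology

set_option linter.unusedSectionVars false

namespace Vale.Agent.P070

variable {D : Type*} [Ring D] [StarRing D] [Algebra ℂ D] [StarModule ℂ D]
variable {H : Type*} [NormedAddCommGroup H] [InnerProductSpace ℂ H] [CompleteSpace H]

namespace Sys

variable (S : Sys D)

theorem iterate [Nontrivial H] {σ : D →⋆ₐ[ℂ] (H →L[ℂ] H)} (hσ : Irr σ) :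
    ∃ (k : ℕ → ℕ) (u : ℕ → D) (ξ : H), ‖ξ‖ = 1 ∧ (∀ j, u j ∈ unitary D) ∧ StrictMono k ∧
      (∀ i j, j ≤ i → u i * (1 - S.e (k j)) = u j * (1 - S.e (k j))) ∧
      (∀ j, σ (u j * S.e (k j) * star (u j)) ξ = ξ) ∧
      (∀ b, ∃ (j : ℕ) (c : ℂ), S.e (k j) * star (u j) * b * u j * S.e (k j) = c • S.e (k j)) := by
  let St := {p : ℕ × D × H // p.2.1 ∈ unitary D ∧ ‖p.2.2‖ = 1 ∧ σ (S.e p.1) p.2.2 = p.2.2}
  have hstep : ∀ (j : ℕ) (p : St), ∃ q : St, p.1.1 < q.1.1 ∧
      q.1.2.1 * (1 - S.e p.1.1) = p.1.2.1 * (1 - S.e p.1.1) ∧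
      (∀ b, S.M j b → ∃ c : ℂ,
        S.e q.1.1 * star q.1.2.1 * b * q.1.2.1 * S.e q.1.1 = c • S.e q.1.1) ∧
      ‖σ q.1.2.1 q.1.2.2 - σ p.1.2.1 p.1.2.2‖ < (1 / 2) ^ j := by
    rintro j ⟨⟨k, u, ζ⟩, hu, hζ, hζe⟩
    obtain ⟨n0, hn0⟩ := S.exh u
    have hn0' : S.M n0 u := hn0
    obtain ⟨m, hm, w, hw, hw1, hw2, ζ', h1, h2, h3⟩ :=
      S.step hσ (k := k) (n := max k (max j n0)) (le_max_left _ _) hζ hζe
        (ε := (1 / 2) ^ j) (by positivity)
    refine ⟨⟨⟨m, u * w, ζ'⟩, mul_mem hu hw, h1, h2⟩, lt_of_le_of_lt (le_max_left _ _) hm, ?_,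
      fun b hb => ?_, ?_⟩
    · show u * w * (1 - S.e k) = u * (1 - S.e k)
      rw [mul_assoc, hw1]
    · have hu' : S.M (max k (max j n0)) u := hn0'.mono (by omega)
      obtain ⟨c, hc⟩ := hw2 (star u * b * u) ((hu'.star.mul (hb.mono (by omega))).mul hu')
      refine ⟨c, ?_⟩
      show S.e m * star (u * w) * b * (u * w) * S.e m = c • S.e m
      rw [← hc, star_mul]
      simp only [mul_assoc]
    · show ‖σ (u * w) ζ' - σ u ζ‖ < _
      rw [rep_mul, ← map_sub, norm_rep_unitary σ hu]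
      exact h3
  choose f hf using hstep
  obtain ⟨ζ0, hζ0, hζ0e⟩ := S.exists_unit σ 0
  let p : ℕ → St := fun j => Nat.rec ⟨⟨0, 1, ζ0⟩, one_mem _, hζ0, hζ0e⟩ f j
  have hp : ∀ j, p (j + 1) = f j (p j) := fun j => rfl
  set k : ℕ → ℕ := fun j => (p j).1.1 with hk
  set u : ℕ → D := fun j => (p j).1.2.1 with hu
  set ζ : ℕ → H := fun j => (p j).1.2.2 with hζ
  have hu1 : ∀ j, u j ∈ unitary D := fun j => (p j).2.1
  have hζ1 : ∀ j, ‖ζ j‖ = 1 := fun j => (p j).2.2.1
  have hζ2 : ∀ j, σ (S.e (k j)) (ζ j) = ζ j := fun j => (p j).2.2.2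
  have hkm : StrictMono k := strictMono_nat_of_lt_succ fun j => (hf j (p j)).1
  have hu2 : ∀ j, u (j + 1) * (1 - S.e (k j)) = u j * (1 - S.e (k j)) := fun j => (hf j (p j)).2.1
  have hu3 : ∀ j b, S.M j b → ∃ c : ℂ, S.e (k (j + 1)) * star (u (j + 1)) * b * u (j + 1) *
      S.e (k (j + 1)) = c • S.e (k (j + 1)) := fun j => (hf j (p j)).2.2.1
  have hu4 : ∀ j, ‖σ (u (j + 1)) (ζ (j + 1)) - σ (u j) (ζ j)‖ < (1 / 2) ^ j :=
    fun j => (hf j (p j)).2.2.2
  have hu5 : ∀ i j, j ≤ i → u i * (1 - S.e (k j)) = u j * (1 - S.e (k j)) := by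
    intro i j hij
    induction i, hij using Nat.le_induction with
    | base => rfl
    | succ i hji ih =>
      have h1 : (1 - S.e (k i)) * (1 - S.e (k j)) = 1 - S.e (k j) := by
        rw [mul_sub, mul_one, sub_mul, one_mul, S.e_ge (hkm.monotone hji)]; abel
      rw [← ih, ← h1, ← mul_assoc, hu2, mul_assoc]
  have hcs : CauchySeq fun j => σ (u j) (ζ j) := by
    refine cauchySeq_of_le_geometric (1 / 2) 1 (by norm_num) fun j => ?_
    rw [dist_comm, dist_eq_norm, one_mul]
    exact (hu4 j).le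
  obtain ⟨ξ, hξ⟩ := cauchySeq_tendsto_of_complete hcs
  refine ⟨k, u, ξ, ?_, hu1, hkm, hu5, fun j => ?_, fun b => ?_⟩
  · have h1 := hξ.norm
    simp only [norm_rep_unitary σ (hu1 _), hζ1] at h1
    exact (tendsto_nhds_unique tendsto_const_nhds h1).symm
  · have h1 : ∀ i, j ≤ i → σ (u j * S.e (k j) * star (u j)) (σ (u i) (ζ i)) = σ (u i) (ζ i) := by
      intro i hi
      have e1 : u j * S.e (k j) * star (u j) = u i * S.e (k j) * star (u i) := by
        have g : ∀ v ∈ unitary D, v * S.e (k j) * star v =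
            1 - (v * (1 - S.e (k j))) * star (v * (1 - S.e (k j))) := by
          intro v hv
          have hv2 : v * star v = 1 := hv.2
          have : (v * (1 - S.e (k j))) * star (v * (1 - S.e (k j))) =
              v * star v - v * S.e (k j) * star v - v * S.e (k j) * star v +
                v * (S.e (k j) * S.e (k j)) * star v := by
            rw [star_mul, star_sub, star_one, S.star_e]; noncomm_ring
          rw [this, S.e_e, hv2]; abel
        rw [g _ (hu1 j), g _ (hu1 i), hu5 i j hi]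
      rw [e1, ← rep_mul, mul_assoc, (hu1 i).1, mul_one, rep_mul, ← hζ2 i, ← rep_mul _ (S.e (k j)),
        S.e_le (hkm.monotone hi)]
    have h2 := ((σ (u j * S.e (k j) * star (u j))).continuous.tendsto ξ).comp hξ
    refine tendsto_nhds_unique h2 (hξ.congr' ?_)
    filter_upwards [eventually_ge_atTop j] with i hi
    exact (h1 i hi).symm
  · obtain ⟨j, hj⟩ := S.exh b
    obtain ⟨c, hc⟩ := hu3 j b hj
    exact ⟨j + 1, c, hc⟩

variable {H₀ : Type*} [NormedAddCommGroup H₀] [InnerProductSpace ℂ H₀] [CompleteSpace H₀]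

/-- the uniform smallness property of the projections `e k` in the ambient representation -/
def Small (ι : D →⋆ₐ[ℂ] (H₀ →L[ℂ] H₀)) : Prop :=
  ∀ (η : H₀) (ε : ℝ), 0 < ε → ∃ k₀, ∀ k ≥ k₀, ∀ u ∈ unitary D, ‖ι (S.e k) (ι u η)‖ < ε

theorem exists_limit {ι : D →⋆ₐ[ℂ] (H₀ →L[ℂ] H₀)} (hι : S.Small ι) {k : ℕ → ℕ} {u : ℕ → D}
    (hu : ∀ j, u j ∈ unitary D) (hk : StrictMono k)
    (h : ∀ i j, j ≤ i → u i * (1 - S.e (k j)) = u j * (1 - S.e (k j))) :
    ∃ x ∈ unitary (H₀ →L[ℂ] H₀), ∀ j, x * (1 - ι (S.e (k j))) = ι (u j * (1 - S.e (k j))) := by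
  have hsm : ∀ (η : H₀) (v : ℕ → D), (∀ j, v j ∈ unitary D) →
      Tendsto (fun j => ι (S.e (k j)) (ι (v j) η)) atTop (𝓝 0) := by
    intro η v hv
    rw [NormedAddGroup.tendsto_nhds_zero]
    intro ε hε
    obtain ⟨k₀, hk₀⟩ := hι η ε hε
    filter_upwards [eventually_ge_atTop k₀] with j hj
    exact hk₀ _ (hj.trans (hk.id_le j)) _ (hv j)
  have hsm1 : ∀ η : H₀, Tendsto (fun j => ι (S.e (k j)) η) atTop (𝓝 0) := by
    intro η
    simpa using hsm η (fun _ => 1) (fun _ => one_mem _)
  have hcs : ∀ η : H₀, CauchySeq fun j => ι (u j) η := by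
    intro η
    rw [Metric.cauchySeq_iff']
    intro ε hε
    obtain ⟨N, hN⟩ := (NormedAddGroup.tendsto_nhds_zero.mp (hsm1 η) (ε / 2)
      (by positivity)).exists
    refine ⟨N, fun i hi => ?_⟩
    have e1 : ι (u i) η - ι (u N) η = ι (u i) (ι (S.e (k N)) η) - ι (u N) (ι (S.e (k N)) η) := by
      have := congrArg (fun a => ι a η) (h i N hi)
      simp only [mul_sub, mul_one, map_sub, sub_apply, rep_mul] at this
      rw [sub_eq_sub_iff_sub_eq_sub] at this
      exact this
    rw [dist_eq_norm, e1]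
    have := norm_sub_le (ι (u i) (ι (S.e (k N)) η)) (ι (u N) (ι (S.e (k N)) η))
    rw [norm_rep_unitary ι (hu _), norm_rep_unitary ι (hu _)] at this
    linarith
  choose F hF using fun η => cauchySeq_tendsto_of_complete (hcs η)
  let x : H₀ →L[ℂ] H₀ := continuousLinearMapOfTendsto (l := atTop) (fun j => ι (u j)) (f := F)
    (tendsto_pi_nhds.mpr hF)
  have hx : ∀ η, Tendsto (fun j => ι (u j) η) atTop (𝓝 (x η)) := hF
  have hx1 : ∀ j, x * (1 - ι (S.e (k j))) = ι (u j * (1 - S.e (k j))) := by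
    intro j
    ext η
    refine tendsto_nhds_unique (hx ((1 - ι (S.e (k j))) η)) (tendsto_const_nhds.congr' ?_)
    filter_upwards [eventually_ge_atTop j] with i hi
    rw [← h i j hi, rep_mul, map_sub, map_one]
  refine ⟨x, ⟨?_, ?_⟩, hx1⟩
  · ext η
    refine ext_inner_left ℂ fun θ => ?_
    show ⟪θ, (star x) (x η)⟫_ℂ = ⟪θ, η⟫_ℂ
    rw [ContinuousLinearMap.star_eq_adjoint, ContinuousLinearMap.adjoint_inner_right]
    refine tendsto_nhds_unique ((hx θ).inner (hx η)) (tendsto_const_nhds.congr fun j => ?_)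
    rw [inner_rep_left, ← rep_mul, (hu j).1, map_one]; rfl
  · ext η
    show x ((star x) η) = η
    have e1 : ∀ j, x (star x η) - x (ι (S.e (k j)) (star x η)) =
        η - ι (u j) (ι (S.e (k j)) (ι (star (u j)) η)) := by
      intro j
      have g1 : x * (1 - ι (S.e (k j))) * star (x * (1 - ι (S.e (k j)))) =
          x * star x - x * ι (S.e (k j)) * star x := by
        have : x * (1 - ι (S.e (k j))) * star (x * (1 - ι (S.e (k j)))) =
            x * star x - x * ι (S.e (k j)) * star x - x * ι (S.e (k j)) * star x +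
              x * (ι (S.e (k j)) * ι (S.e (k j))) * star x := by
          rw [star_mul, star_sub, star_one, ← map_star, S.star_e]; noncomm_ring
        rw [this, ← map_mul, S.e_e]; abel
      have g2 : u j * (1 - S.e (k j)) * star (u j * (1 - S.e (k j))) =
          1 - u j * S.e (k j) * star (u j) := by
        have hv2 : u j * star (u j) = 1 := (hu j).2
        have : u j * (1 - S.e (k j)) * star (u j * (1 - S.e (k j))) =
            u j * star (u j) - u j * S.e (k j) * star (u j) - u j * S.e (k j) * star (u j) +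
              u j * (S.e (k j) * S.e (k j)) * star (u j) := by
          rw [star_mul, star_sub, star_one, S.star_e]; noncomm_ring
        rw [this, S.e_e, hv2]; abel
      rw [hx1, ← map_star, ← map_mul, g2] at g1
      have := congrArg (fun T : H₀ →L[ℂ] H₀ => T η) g1
      simp only [map_sub, map_one, sub_apply, rep_mul, one_apply_eq_self,
        mul_apply_eq_comp] at this
      exact this.symm
    have t1 : Tendsto (fun j => x (star x η) - x (ι (S.e (k j)) (star x η))) atTop
        (𝓝 (x (star x η) - x 0)) :=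
      tendsto_const_nhds.sub ((x.continuous.tendsto 0).comp (hsm1 _))
    have t2 : Tendsto (fun j => η - ι (u j) (ι (S.e (k j)) (ι (star (u j)) η))) atTop
        (𝓝 (η - 0)) := by
      refine tendsto_const_nhds.sub ?_
      rw [tendsto_zero_iff_norm_tendsto_zero]
      simp only [norm_rep_unitary ι (hu _)]
      exact tendsto_zero_iff_norm_tendsto_zero.mp
        (hsm η (fun j => star (u j)) fun j => Unitary.star_mem (hu j))
    simp only [e1] at t1
    simpa using tendsto_nhds_unique t1 t2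

/-- main existence lemma: every irreducible representation has a pure state excised by a
conjugate of the standard projections -/
theorem exists_good [Nontrivial H] {ι : D →⋆ₐ[ℂ] (H₀ →L[ℂ] H₀)} (hι : S.Small ι)
    {σ : D →⋆ₐ[ℂ] (H →L[ℂ] H)} (hσ : Irr σ) :
    ∃ x ∈ unitary (H₀ →L[ℂ] H₀), ∃ ξ : H, ‖ξ‖ = 1 ∧
      (∀ k, ∃ d, x * (1 - ι (S.e k)) = ι d) ∧
      (∀ k, ∃ q, x * ι (S.e k) * star x = ι q ∧ σ q ξ = ξ) ∧
      ∀ b, ∃ k, ι (S.e k) * star x * ι b * x * ι (S.e k) = ⟪ξ, σ b ξ⟫_ℂ • ι (S.e k) := by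
  obtain ⟨k, u, ξ, hξ, hu, hk, h1, h2, h3⟩ := S.iterate hσ
  obtain ⟨x, hx, hx1⟩ := S.exists_limit hι hu hk h1
  have hA : ∀ j l, l ≤ k j → x * (1 - ι (S.e l)) = ι (u j * (1 - S.e l)) := by
    intro j l hl
    have g : (1 - S.e (k j)) * (1 - S.e l) = 1 - S.e l := by
      rw [mul_sub, mul_one, sub_mul, one_mul, S.e_ge hl]; abel
    have g' : (1 - ι (S.e (k j))) * (1 - ι (S.e l)) = 1 - ι (S.e l) := by
      have := congrArg ι g
      simpa using this
    rw [← g', ← mul_assoc, hx1, ← g, ← mul_assoc, map_mul ι (u j * _)]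
    simp
  have hB : ∀ j l, l ≤ k j → x * ι (S.e l) * star x = ι (u j * S.e l * star (u j)) := by
    intro j l hl
    have g1 : x * ι (S.e l) * star x =
        1 - x * (1 - ι (S.e l)) * star (x * (1 - ι (S.e l))) := by
      have hv2 : x * star x = 1 := hx.2
      have : x * (1 - ι (S.e l)) * star (x * (1 - ι (S.e l))) =
          x * star x - x * ι (S.e l) * star x - x * ι (S.e l) * star x +
            x * (ι (S.e l) * ι (S.e l)) * star x := by
        rw [star_mul, star_sub, star_one, ← map_star, S.star_e]; noncomm_ring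
      rw [this, ← map_mul, S.e_e, hv2]; abel
    have g2 : u j * S.e l * star (u j) =
        1 - u j * (1 - S.e l) * star (u j * (1 - S.e l)) := by
      have hv2 : u j * star (u j) = 1 := (hu j).2
      have : u j * (1 - S.e l) * star (u j * (1 - S.e l)) =
          u j * star (u j) - u j * S.e l * star (u j) - u j * S.e l * star (u j) +
            u j * (S.e l * S.e l) * star (u j) := by
        rw [star_mul, star_sub, star_one, S.star_e]; noncomm_ring
      rw [this, S.e_e, hv2]; abel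
    rw [g1, g2, hA j l hl, map_sub, map_one, map_mul ι (u j * _), map_star]
  refine ⟨x, hx, ξ, hξ, fun l => ⟨_, hA l l (hk.id_le l)⟩,
    fun l => ⟨_, hB l l (hk.id_le l), ?_⟩, fun b => ?_⟩
  · have g : u l * S.e l * star (u l) * (u l * S.e (k l) * star (u l)) =
        u l * S.e (k l) * star (u l) := by
      calc _ = u l * (S.e l * (star (u l) * u l) * S.e (k l)) * star (u l) := by
            simp only [mul_assoc]
        _ = _ := by rw [(hu l).1, mul_one, S.e_le (k := l) (hk.id_le l)]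
    rw [← h2 l, ← rep_mul, g]
  · obtain ⟨j, c, hc⟩ := h3 b
    set q := u j * S.e (k j) * star (u j) with hq
    have hqs : star q = q := by
      rw [hq, star_mul, star_mul, star_star, S.star_e, mul_assoc]
    have g1 : q * b * q = c • q := by
      calc _ = u j * (S.e (k j) * star (u j) * b * u j * S.e (k j)) * star (u j) := by
            simp only [hq, mul_assoc]
        _ = _ := by rw [hc, mul_smul_comm, smul_mul_assoc]
    have g2 : ⟪ξ, σ b ξ⟫_ℂ = c := by
      have := congrArg (fun z => ⟪ξ, σ z ξ⟫_ℂ) g1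
      simp only [rep_mul, map_smul, smul_apply, h2 j] at this
      rw [inner_rep_right, hqs, h2 j, inner_smul_right, inner_self_eq_norm_sq_to_K, hξ] at this
      simpa using this
    refine ⟨k j, ?_⟩
    have g3 := congrArg ι g1
    rw [map_mul, map_mul, map_smul, ← hB j (k j) le_rfl] at g3
    have hx1 : star x * x = 1 := hx.1
    calc _ = (star x * x) * ι (S.e (k j)) * star x * ι b * x * ι (S.e (k j)) * (star x * x) := by
          rw [hx1, one_mul, mul_one]
      _ = star x * (x * ι (S.e (k j)) * star x * ι b * (x * ι (S.e (k j)) * star x)) * x := by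
          simp only [mul_assoc]
      _ = c • ((star x * x) * ι (S.e (k j)) * (star x * x)) := by
          rw [g3, mul_smul_comm, smul_mul_assoc]; simp only [mul_assoc]
      _ = _ := by rw [hx1, one_mul, mul_one, g2]

end Sys

end Vale.Agent.P070
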