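import Vale.Agent.P070.Tower
import Vale.Agent.P070.Iter

/-!
A concrete tracial representation of the algebraic CAR algebra by Pauli operators.
-/

open scoped InnerProductSpace ComplexConjugate ENNReal
open Filter Topology

set_option linter.unusedSectionVars false

namespace Vale.Agent.P070

section small

variable {D : Type*} [Ring D] [StarRing D] [Algebra ℂ D] [StarModule ℂ D]
variable {H₀ : Type*} [NormedAddCommGroup H₀] [InnerProductSpace ℂ H₀] [CompleteSpace H₀]

theorem norm_rep_e (S : Sys D) (ι : D →⋆ₐ[ℂ] (H₀ →L[ℂ] H₀)) (k : ℕ) (x : H₀) :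
    ‖ι (S.e k) x‖ ≤ ‖x‖ := by
  have h : ‖ι (S.e k)‖ ≤ 1 := IsStarProjection.norm_le _
    ⟨by rw [IsIdempotentElem, ← map_mul, S.e_e], by rw [IsSelfAdjoint, ← map_star, S.star_e]⟩
  exact (ContinuousLinearMap.le_opNorm _ _).trans
    (mul_le_of_le_one_left (norm_nonneg _) h)

theorem small_of_trace (S : Sys D) (ι : D →⋆ₐ[ℂ] (H₀ →L[ℂ] H₀)) (Ω : H₀)
    (htr : ∀ a b, ⟪Ω, ι (a * b) Ω⟫_ℂ = ⟪Ω, ι (b * a) Ω⟫_ℂ)
    (hlim : Tendsto (fun k => ⟪Ω, ι (S.e k) Ω⟫_ℂ) atTop (𝓝 0))
    (hcyc : ∀ G : Submodule ℂ H₀, IsClosed (G : Set H₀) → Ω ∈ G →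
      (∀ T : H₀ →L[ℂ] H₀, (∀ a, Commute (ι a) T) → ∀ x ∈ G, T x ∈ G) → ∀ x, x ∈ G) :
    S.Small ι := by
  let G : Submodule ℂ H₀ :=
    { carrier := {η | ∀ ε : ℝ, 0 < ε → ∃ k₀, ∀ k ≥ k₀, ∀ u ∈ unitary D, ‖ι (S.e k) (ι u η)‖ < ε}
      add_mem' := by
        intro x y hx hy ε hε
        obtain ⟨k₁, h₁⟩ := hx (ε / 2) (by positivity)
        obtain ⟨k₂, h₂⟩ := hy (ε / 2) (by positivity)
        refine ⟨max k₁ k₂, fun k hk u hu => ?_⟩
        have a1 := h₁ k (le_of_max_le_left hk) u hu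
        have a2 := h₂ k (le_of_max_le_right hk) u hu
        rw [map_add, map_add]
        exact (norm_add_le _ _).trans_lt (by linarith)
      zero_mem' := fun ε hε => ⟨0, fun k _ u _ => by simpa using hε⟩
      smul_mem' := by
        intro c x hx ε hε
        obtain ⟨k₁, h₁⟩ := hx (ε / (‖c‖ + 1)) (by positivity)
        refine ⟨k₁, fun k hk u hu => ?_⟩
        rw [map_smul, map_smul, norm_smul]
        calc _ ≤ (‖c‖ + 1) * ‖ι (S.e k) (ι u x)‖ :=
              mul_le_mul_of_nonneg_right (by linarith) (norm_nonneg _)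
          _ < (‖c‖ + 1) * (ε / (‖c‖ + 1)) := mul_lt_mul_of_pos_left (h₁ k hk u hu) (by positivity)
          _ = ε := by field_simp }
  intro η
  refine hcyc G ?_ ?_ ?_ η
  · refine isClosed_of_closure_subset fun x hx ε hε => ?_
    obtain ⟨y, hy, hxy⟩ := Metric.mem_closure_iff.mp hx (ε / 2) (by positivity)
    obtain ⟨k₁, h₁⟩ := hy (ε / 2) (by positivity)
    refine ⟨k₁, fun k hk u hu => ?_⟩
    have a1 := h₁ k hk u hu
    have a2 : ‖ι (S.e k) (ι u (x - y))‖ < ε / 2 := by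
      refine (norm_rep_e S ι k _).trans_lt ?_
      rw [norm_rep_unitary ι hu, ← dist_eq_norm]; exact hxy
    have : ι (S.e k) (ι u x) = ι (S.e k) (ι u (x - y)) + ι (S.e k) (ι u y) := by
      rw [map_sub, map_sub, sub_add_cancel]
    rw [this]
    exact (norm_add_le _ _).trans_lt (by linarith)
  · intro ε hε
    obtain ⟨k₀, hk₀⟩ := eventually_atTop.mp
      (NormedAddGroup.tendsto_nhds_zero.mp hlim (ε ^ 2) (by positivity))
    refine ⟨k₀, fun k hk u hu => ?_⟩
    have e1 : ⟪ι (S.e k) (ι u Ω), ι (S.e k) (ι u Ω)⟫_ℂ = ⟪Ω, ι (S.e k) Ω⟫_ℂ := by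
      rw [inner_rep_left, ← rep_mul, S.e_star_mul, inner_rep_left, ← rep_mul, ← rep_mul, mul_assoc,
        htr, mul_assoc, hu.2, mul_one]
    have e2 := hk₀ k hk
    rw [← e1, inner_self_eq_norm_sq_to_K] at e2
    have e3 : ‖ι (S.e k) (ι u Ω)‖ ^ 2 < ε ^ 2 := by simpa using e2
    exact lt_of_pow_lt_pow_left₀ 2 hε.le e3
  · intro T hT x hx ε hε
    obtain ⟨k₁, h₁⟩ := hx (ε / (‖T‖ + 1)) (by positivity)
    refine ⟨k₁, fun k hk u hu => ?_⟩
    have e1 : ι (S.e k) (ι u (T x)) = T (ι (S.e k) (ι u x)) := by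
      have := congrArg (fun R : H₀ →L[ℂ] H₀ => R x) (hT (S.e k * u)).eq
      simpa only [mul_apply_eq_comp, rep_mul] using this
    rw [e1]
    calc _ ≤ ‖T‖ * ‖ι (S.e k) (ι u x)‖ := T.le_opNorm _
      _ ≤ (‖T‖ + 1) * ‖ι (S.e k) (ι u x)‖ :=
          mul_le_mul_of_nonneg_right (by linarith) (norm_nonneg _)
      _ < (‖T‖ + 1) * (ε / (‖T‖ + 1)) := mul_lt_mul_of_pos_left (h₁ k hk u hu) (by positivity)
      _ = ε := by field_simp

end small

/-- the index group -/
abbrev Gam : Type := ℕ →₀ ZMod 2 × ZMod 2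

/-- the tracial Hilbert space -/
abbrev Hs : Type := lp (fun _ : Gam => ℂ) 2

theorem Gam.add_self (g : Gam) : g + g = 0 := by
  ext j
  · simpa using CharTwo.add_self_eq_zero (g j).1
  · simpa using CharTwo.add_self_eq_zero (g j).2

theorem hasSum_wt (w : Gam → ℂ) (hw : ∀ γ, ‖w γ‖ = 1) (g : Gam) (f : Hs) :
    HasSum (fun γ => ‖w γ * f (γ + g)‖ ^ (2 : ℝ≥0∞).toReal) (‖f‖ ^ (2 : ℝ≥0∞).toReal) := by
  have h := lp.hasSum_norm (p := 2) (by norm_num) f
  have h2 := (Equiv.addRight g).hasSum_iff.mpr h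
  simpa [hw, Function.comp_def] using h2

/-- weighted translation operator -/
noncomputable def wt (w : Gam → ℂ) (hw : ∀ γ, ‖w γ‖ = 1) (g : Gam) : Hs →L[ℂ] Hs :=
  LinearMap.mkContinuous
    { toFun := fun f => ⟨fun γ => w γ * f (γ + g), memℓp_gen (hasSum_wt w hw g f).summable⟩
      map_add' := fun f f' => by
        ext γ
        show w γ * (f + f') (γ + g) = w γ * f (γ + g) + w γ * f' (γ + g)
        rw [lp.coeFn_add, Pi.add_apply, mul_add]
      map_smul' := fun c f => by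
        ext γ
        show w γ * (c • f) (γ + g) = c * (w γ * f (γ + g))
        rw [lp.coeFn_smul, Pi.smul_apply, smul_eq_mul]; ring } 1
    (fun f => by
      rw [one_mul]
      exact lp.norm_le_of_tsum_le (by norm_num) (norm_nonneg f) (hasSum_wt w hw g f).tsum_eq.le)

theorem wt_apply (w : Gam → ℂ) (hw : ∀ γ, ‖w γ‖ = 1) (g : Gam) (f : Hs) (γ : Gam) :
    wt w hw g f γ = w γ * f (γ + g) := rfl

theorem wt_sa (w : Gam → ℂ) (hw : ∀ γ, ‖w γ‖ = 1) (g : Gam) (h : ∀ γ, w (γ + g) = conj (w γ)) :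
    star (wt w hw g) = wt w hw g := by
  rw [ContinuousLinearMap.star_eq_adjoint]
  symm
  rw [ContinuousLinearMap.eq_adjoint_iff]
  intro f f'
  rw [lp.inner_eq_tsum, lp.inner_eq_tsum, ← (Equiv.addRight g).tsum_eq]
  refine tsum_congr fun γ => ?_
  simp only [wt_apply, Equiv.coe_addRight, add_assoc, Gam.add_self, add_zero, h, RCLike.inner_apply,
    map_mul, Complex.conj_conj]
  ring

theorem wt_single (w : Gam → ℂ) (hw : ∀ γ, ‖w γ‖ = 1) (g γ : Gam) (c : ℂ) :
    wt w hw g (lp.single 2 γ c) = w (γ + g) • lp.single 2 (γ + g) c := by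
  ext γ'
  rw [wt_apply, lp.coeFn_smul, Pi.smul_apply, smul_eq_mul]
  by_cases h : γ' = γ + g
  · subst h
    rw [add_assoc, Gam.add_self, add_zero, lp.single_apply_self, lp.single_apply_self]
  · rw [lp.single_apply_ne _ _ _ h, lp.single_apply_ne, mul_zero, mul_zero]
    intro h'
    apply h
    rw [← h', add_assoc, Gam.add_self, add_zero]

/-- the sign character -/
noncomputable def sg (x : ZMod 2) : ℂ := if x = 0 then 1 else -1

theorem sg_norm (x : ZMod 2) : ‖sg x‖ = 1 := by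
  unfold sg; split_ifs <;> simp

theorem sg_conj (x : ZMod 2) : conj (sg x) = sg x := by
  unfold sg; split_ifs <;> simp

theorem sg_sq (x : ZMod 2) : sg x * sg x = 1 := by
  unfold sg; split_ifs <;> simp

theorem sg_zero : sg 0 = 1 := by simp [sg]

theorem sg_add_one (x : ZMod 2) : sg (x + 1) = -sg x := by
  have : ∀ y : ZMod 2, y = 0 ∨ y = 1 := by decide
  have h2 : (1 + 1 : ZMod 2) = 0 := by decide
  rcases this x with rfl | rfl
  · simp [sg]
  · rw [h2]; simp [sg]

/-- generators of the index group -/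
noncomputable def gx (j : ℕ) : Gam := Finsupp.single j (1, 0)

/-- generators of the index group -/
noncomputable def gz (j : ℕ) : Gam := Finsupp.single j (0, 1)

theorem gx_fst (γ : Gam) (i j : ℕ) :
    ((γ + gx i) j).1 = if i = j then (γ j).1 + 1 else (γ j).1 := by
  simp only [gx, Finsupp.add_apply, Finsupp.single_apply]; split_ifs <;> simp

theorem gx_snd (γ : Gam) (i j : ℕ) : ((γ + gx i) j).2 = (γ j).2 := by
  simp only [gx, Finsupp.add_apply, Finsupp.single_apply]; split_ifs <;> simp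

theorem gz_fst (γ : Gam) (i j : ℕ) : ((γ + gz i) j).1 = (γ j).1 := by
  simp only [gz, Finsupp.add_apply, Finsupp.single_apply]; split_ifs <;> simp

theorem gz_snd (γ : Gam) (i j : ℕ) :
    ((γ + gz i) j).2 = if i = j then (γ j).2 + 1 else (γ j).2 := by
  simp only [gz, Finsupp.add_apply, Finsupp.single_apply]; split_ifs <;> simp

/-- left Pauli X -/
noncomputable def LX (j : ℕ) : Hs →L[ℂ] Hs := wt (fun _ => 1) (fun _ => norm_one) (gx j)
/-- left Pauli Z -/
noncomputable def LZ (j : ℕ) : Hs →L[ℂ] Hs := wt (fun γ => sg (γ j).1) (fun _ => sg_norm _) (gz j)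
/-- right Pauli X -/
noncomputable def RX (j : ℕ) : Hs →L[ℂ] Hs := wt (fun γ => sg (γ j).2) (fun _ => sg_norm _) (gx j)
/-- right Pauli Z -/
noncomputable def RZ (j : ℕ) : Hs →L[ℂ] Hs := wt (fun _ => 1) (fun _ => norm_one) (gz j)

theorem star_LX (j : ℕ) : star (LX j) = LX j := wt_sa _ _ _ (by simp)
theorem star_LZ (j : ℕ) : star (LZ j) = LZ j := wt_sa _ _ _ (by simp only [gz_fst, sg_conj]; simp)
theorem star_RX (j : ℕ) : star (RX j) = RX j := wt_sa _ _ _ (by simp only [gx_snd, sg_conj]; simp)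
theorem star_RZ (j : ℕ) : star (RZ j) = RZ j := wt_sa _ _ _ (by simp)

theorem wt_comm {w w' : Gam → ℂ} {hw hw'} {g g' : Gam}
    (h : ∀ γ, w γ * w' (γ + g) = w' γ * w (γ + g')) : Commute (wt w hw g) (wt w' hw' g') := by
  ext f γ
  simp only [mul_apply_eq_comp, wt_apply]
  rw [← mul_assoc, ← mul_assoc, h, add_right_comm]

theorem LX_LX (j : ℕ) : LX j * LX j = 1 := by
  ext f γ
  simp [LX, wt_apply, add_assoc, Gam.add_self]

theorem LZ_LZ (j : ℕ) : LZ j * LZ j = 1 := by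
  ext f γ
  simp only [LZ, mul_apply_eq_comp, wt_apply, gz_fst, add_assoc, Gam.add_self, add_zero]
  rw [← mul_assoc, sg_sq, one_mul]; rfl

theorem LX_LZ (j : ℕ) : LX j * LZ j = -(LZ j * LX j) := by
  ext f γ
  simp only [LX, LZ, mul_apply_eq_comp, wt_apply, gx_fst, neg_apply, lp.coeFn_neg, Pi.neg_apply,
    if_true, sg_add_one]
  rw [add_right_comm]; ring

theorem cLXX (i j : ℕ) : Commute (LX i) (LX j) := wt_comm (by simp)

theorem cLZZ (i j : ℕ) : Commute (LZ i) (LZ j) := wt_comm (by intro γ; simp only [gz_fst]; ring)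

theorem cLXZ (i j : ℕ) (h : i ≠ j) : Commute (LX i) (LZ j) :=
  wt_comm (by intro γ; simp only [gx_fst, if_neg h]; ring)

/-- the algebraic CAR algebra -/
noncomputable def Car : StarSubalgebra ℂ (Hs →L[ℂ] Hs) :=
  StarAlgebra.adjoin ℂ (Set.range LX ∪ Set.range LZ)

theorem LX_mem (j : ℕ) : LX j ∈ Car := StarAlgebra.subset_adjoin ℂ _ (Or.inl ⟨j, rfl⟩)
theorem LZ_mem (j : ℕ) : LZ j ∈ Car := StarAlgebra.subset_adjoin ℂ _ (Or.inr ⟨j, rfl⟩)

/-- the Pauli pairs of the model -/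
noncomputable def pauli : Pauli Car where
  X j := ⟨LX j, LX_mem j⟩
  Z j := ⟨LZ j, LZ_mem j⟩
  star_X j := Subtype.ext (star_LX j)
  star_Z j := Subtype.ext (star_LZ j)
  XX j := Subtype.ext (LX_LX j)
  ZZ j := Subtype.ext (LZ_LZ j)
  XZ j := Subtype.ext (LX_LZ j)
  cXX i j := Subtype.ext (cLXX i j).eq
  cZZ i j := Subtype.ext (cLZZ i j).eq
  cXZ i j h := Subtype.ext (cLXZ i j h).eq

theorem Car_induction (P : Car → Prop) (hX : ∀ j, P (pauli.X j)) (hZ : ∀ j, P (pauli.Z j))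
    (h1 : ∀ r : ℂ, P (r • 1)) (hadd : ∀ a b, P a → P b → P (a + b))
    (hmul : ∀ a b, P a → P b → P (a * b)) (hstar : ∀ a, P a → P (star a)) (a : Car) : P a := by
  refine StarAlgebra.adjoin_induction_subtype (p := P) a ?_ ?_ hadd hmul hstar
  · rintro x (⟨j, rfl⟩ | ⟨j, rfl⟩)
    · exact hX j
    · exact hZ j
  · intro r
    rw [Algebra.algebraMap_eq_smul_one]
    exact h1 r

theorem car_exh (b : Car) : ∃ n, pauli.pre.M n b := by
  refine Car_induction (fun b => ∃ n, pauli.pre.M n b) (fun j => ⟨_, pauli.M_X j⟩)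
    (fun j => ⟨_, pauli.M_Z j⟩) (fun r => ⟨0, (pauli.pre.M_one 0).smul r⟩) ?_ ?_ ?_ b
  · rintro a b ⟨n, hn⟩ ⟨m, hm⟩
    exact ⟨max n m, (hn.mono (le_max_left _ _)).add (hm.mono (le_max_right _ _))⟩
  · rintro a b ⟨n, hn⟩ ⟨m, hm⟩
    exact ⟨max n m, (hn.mono (le_max_left _ _)).mul (hm.mono (le_max_right _ _))⟩
  · rintro a ⟨n, hn⟩
    exact ⟨n, hn.star⟩

/-- the system of the model -/
noncomputable def carSys : Sys Car := pauli.sys Car.subtype Subtype.val_injective car_exh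

theorem car_comm {T : Hs →L[ℂ] Hs} (hT : star T = T) (hX : ∀ j, Commute (LX j) T)
    (hZ : ∀ j, Commute (LZ j) T) (a : Car) : Commute (Car.subtype a) T := by
  refine Car_induction (fun a => Commute (Car.subtype a) T) hX hZ (fun r => ?_) ?_ ?_ ?_ a
  · rw [map_smul, map_one]; exact (Commute.one_left T).smul_left r
  · intro a b ha hb; rw [map_add]; exact ha.add_left hb
  · intro a b ha hb; rw [map_mul]; exact ha.mul_left hb
  · intro a ha
    have := ha.star_star
    rwa [hT, ← map_star] at this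

theorem comm_RX (j : ℕ) (a : Car) : Commute (Car.subtype a) (RX j) :=
  car_comm (star_RX j) (fun i => wt_comm (by intro γ; simp only [gx_snd]; ring))
    (fun i => wt_comm (by
      intro γ
      simp only [gz_snd, gx_fst]
      by_cases h : i = j
      · subst h; simp [sg_add_one]; ring
      · rw [if_neg h, if_neg (Ne.symm h)]; ring)) a

theorem comm_RZ (j : ℕ) (a : Car) : Commute (Car.subtype a) (RZ j) :=
  car_comm (star_RZ j) (fun i => wt_comm (by simp))
    (fun i => wt_comm (by intro γ; simp only [gz_fst]; ring)) a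

/-- the trace vector -/
noncomputable def Om : Hs := lp.single 2 0 1

theorem LX_Om (j : ℕ) : LX j Om = RX j Om := by
  rw [Om, LX, RX, wt_single, wt_single, gx_snd]; simp [sg_zero]

theorem LZ_Om (j : ℕ) : LZ j Om = RZ j Om := by
  rw [Om, LZ, RZ, wt_single, wt_single, gz_fst]; simp [sg_zero]

theorem trace_gen {L R : Hs →L[ℂ] Hs} (hL : star L = L) (hR : star R = R) (h : L Om = R Om)
    {b : Hs →L[ℂ] Hs} (hb : Commute b R) : ⟪Om, (L * b) Om⟫_ℂ = ⟪Om, (b * L) Om⟫_ℂ := by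
  have hL' : IsSelfAdjoint L := hL
  have hR' : IsSelfAdjoint R := hR
  have e1 : R (b Om) = b (R Om) := (congrArg (fun T : Hs →L[ℂ] Hs => T Om) hb.eq).symm
  have e2 : ⟪L Om, b Om⟫_ℂ = ⟪Om, L (b Om)⟫_ℂ := hL'.isSymmetric _ _
  have e3 : ⟪R Om, b Om⟫_ℂ = ⟪Om, R (b Om)⟫_ℂ := hR'.isSymmetric _ _
  show ⟪Om, L (b Om)⟫_ℂ = ⟪Om, b (L Om)⟫_ℂ
  rw [← e2, h, e3, e1]

theorem car_trace (a b : Car) :
    ⟪Om, Car.subtype (a * b) Om⟫_ℂ = ⟪Om, Car.subtype (b * a) Om⟫_ℂ := by
  refine Car_induction (fun a => ∀ b : Car,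
    ⟪Om, Car.subtype (a * b) Om⟫_ℂ = ⟪Om, Car.subtype (b * a) Om⟫_ℂ) ?_ ?_ ?_ ?_ ?_ ?_ a b
  · intro j b
    rw [map_mul, map_mul]
    exact trace_gen (star_LX j) (star_RX j) (LX_Om j) (comm_RX j b)
  · intro j b
    rw [map_mul, map_mul]
    exact trace_gen (star_LZ j) (star_RZ j) (LZ_Om j) (comm_RZ j b)
  · intro r b
    rw [smul_mul_assoc, mul_smul_comm, one_mul, mul_one]
  · intro a a' ha ha' b
    rw [add_mul, mul_add, map_add, map_add, add_apply, add_apply, inner_add_right, inner_add_right,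
      ha, ha']
  · intro a a' ha ha' b
    rw [mul_assoc, ha, mul_assoc, ha', mul_assoc]
  · intro a ha b
    have h1 : ∀ c : Car, ⟪Om, Car.subtype (star c) Om⟫_ℂ = conj ⟪Om, Car.subtype c Om⟫_ℂ := by
      intro c
      rw [inner_conj_symm, inner_rep_left]
    have h2 : star a * b = star (star b * a) := by rw [star_mul, star_star]
    have h3 : b * star a = star (a * star b) := by rw [star_mul, star_star]
    rw [h2, h3, h1, h1, ha (star b)]

theorem car_small : carSys.Small Car.subtype := by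
  refine small_of_trace carSys Car.subtype Om car_trace ?_ ?_
  · let ω : Car →ₗ[ℂ] ℂ :=
      { toFun := fun a => ⟪Om, Car.subtype a Om⟫_ℂ
        map_add' := fun a b => by rw [map_add, add_apply, inner_add_right]
        map_smul' := fun c a => by rw [map_smul, smul_apply, inner_smul_right]; rfl }
    have h := pauli.trace_e ω car_trace
    have h2 : Tendsto (fun n : ℕ => (1 / 2 : ℂ) ^ n * ω 1) atTop (𝓝 (0 * ω 1)) :=
      (tendsto_pow_atTop_nhds_zero_of_norm_lt_one (by norm_num)).mul_const _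
    rw [zero_mul] at h2
    exact h2.congr fun n => (h n).symm
  · intro G hG hΩ hinv
    have step : ∀ (w : Gam → ℂ) (hw : ∀ γ, ‖w γ‖ = 1) (g : Gam),
        (∀ a, Commute (Car.subtype a) (wt w hw g)) → ∀ γ : Gam,
        lp.single 2 γ (1 : ℂ) ∈ G → lp.single 2 (γ + g) (1 : ℂ) ∈ G := by
      intro w hw g hc γ hγ
      have := hinv _ hc _ hγ
      rw [wt_single] at this
      have h0 : w (γ + g) ≠ 0 := by
        intro h; have := hw (γ + g); rw [h, norm_zero] at this; exact zero_ne_one this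
      exact (G.smul_mem_iff h0).mp this
    have sx : ∀ j γ, lp.single 2 γ (1 : ℂ) ∈ G → lp.single 2 (γ + gx j) (1 : ℂ) ∈ G :=
      fun j => step _ _ _ (comm_RX j)
    have sz : ∀ j γ, lp.single 2 γ (1 : ℂ) ∈ G → lp.single 2 (γ + gz j) (1 : ℂ) ∈ G :=
      fun j => step _ _ _ (comm_RZ j)
    have hall : ∀ γ : Gam, lp.single 2 γ (1 : ℂ) ∈ G := by
      intro γ
      induction γ using Finsupp.induction with
      | zero => exact hΩ
      | single_add j b f _ hb ih =>
        have : ∀ b : ZMod 2 × ZMod 2, b = 0 ∨ b = (1, 0) ∨ b = (0, 1) ∨ b = (1, 0) + (0, 1) := by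
          decide
        rcases this b with h | h | h | h
        · exact absurd h hb
        · rw [h, add_comm]; exact sx j f ih
        · rw [h, add_comm]; exact sz j f ih
        · rw [h, Finsupp.single_add, add_comm, ← add_assoc]; exact sz j _ (sx j f ih)
    intro f
    refine hG.mem_of_tendsto (lp.hasSum_single (by simp) f) (Eventually.of_forall fun s => ?_)
    refine G.sum_mem fun γ _ => ?_
    have : lp.single 2 γ (f γ) = f γ • (lp.single 2 γ (1 : ℂ) : Hs) := by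
      rw [← lp.single_smul, smul_eq_mul, mul_one]
    rw [this]
    exact G.smul_mem _ (hall γ)

end Vale.Agent.P070
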