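import Vale.Agent.P070.Unique
import Vale.Agent.P070.Model

/-!
The counterexample to the problem of Naimark.
-/

open scoped InnerProductSpace ComplexConjugate
open Filter Topology

set_option linter.unusedSectionVars false

namespace Vale.Agent.P070

variable {A : Type*} [CStarAlgebra A]
variable {H : Type*} [NormedAddCommGroup H] [InnerProductSpace ℂ H] [CompleteSpace H]

/-- a non-unital star homomorphism that preserves the unit, as a unital one -/
noncomputable def toUnital (π : A →⋆ₙₐ[ℂ] (H →L[ℂ] H)) (h : π 1 = 1) : A →⋆ₐ[ℂ] (H →L[ℂ] H) where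
  toFun := π
  map_one' := h
  map_mul' := map_mul π
  map_zero' := map_zero π
  map_add' := map_add π
  commutes' := fun r => by
    rw [Algebra.algebraMap_eq_smul_one, map_smul, h, Algebra.algebraMap_eq_smul_one]
  map_star' := map_star π

theorem unital_of_irred (π : A →⋆ₙₐ[ℂ] (H →L[ℂ] H)) (h0 : π ≠ 0)
    (h : ∀ K : Submodule ℂ H, IsClosed (K : Set H) → (∀ a, ∀ x ∈ K, π a x ∈ K) → K = ⊥ ∨ K = ⊤) :
    π 1 = 1 := by
  have key : ∀ a x, π a x ∈ LinearMap.ker (π 1 - 1 : H →L[ℂ] H).toLinearMap := by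
    intro a x
    show π 1 (π a x) - π a x = 0
    have : π (1 * a) x = π 1 (π a x) := by rw [map_mul]; rfl
    rw [← this, one_mul, sub_self]
  rcases h (LinearMap.ker (π 1 - 1 : H →L[ℂ] H).toLinearMap) (ContinuousLinearMap.isClosed_ker _)
    (fun a x _ => key a x) with h1 | h1
  · exfalso
    apply h0
    ext a x
    have := key a x
    rw [h1, Submodule.mem_bot] at this
    exact this
  · ext x
    have : x ∈ LinearMap.ker (π 1 - 1 : H →L[ℂ] H).toLinearMap := by rw [h1]; trivial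
    exact sub_eq_zero.mp this

theorem nontrivial_of_ne_zero (π : A →⋆ₙₐ[ℂ] (H →L[ℂ] H)) (h0 : π ≠ 0) : Nontrivial H := by
  by_contra hn
  rw [not_nontrivial_iff_subsingleton] at hn
  apply h0
  ext a x
  exact Subsingleton.elim _ _

universe u v w

theorem naimark :
    ∃ (A : Type) (_ : CStarAlgebra A), Nontrivial A ∧
      (∀ (H₁ : Type u) [NormedAddCommGroup H₁] [InnerProductSpace ℂ H₁] [CompleteSpace H₁]
        (H₂ : Type v) [NormedAddCommGroup H₂] [InnerProductSpace ℂ H₂] [CompleteSpace H₂]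
        (π₁ : A →⋆ₙₐ[ℂ] (H₁ →L[ℂ] H₁)) (π₂ : A →⋆ₙₐ[ℂ] (H₂ →L[ℂ] H₂)),
        (π₁ ≠ 0 ∧ ∀ K : Submodule ℂ H₁, IsClosed (K : Set H₁) →
          (∀ a, ∀ x ∈ K, π₁ a x ∈ K) → K = ⊥ ∨ K = ⊤) →
        (π₂ ≠ 0 ∧ ∀ K : Submodule ℂ H₂, IsClosed (K : Set H₂) →
          (∀ a, ∀ x ∈ K, π₂ a x ∈ K) → K = ⊥ ∨ K = ⊤) →
        ∃ U : H₁ ≃ₗᵢ[ℂ] H₂, ∀ a x, U (π₁ a x) = π₂ a (U x)) ∧
      ∀ (H : Type w) [NormedAddCommGroup H] [InnerProductSpace ℂ H] [CompleteSpace H],
        ¬ ∃ φ : A →⋆ₙₐ[ℂ] (H →L[ℂ] H),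
          Function.Injective φ ∧ Set.range φ = {T : H →L[ℂ] H | IsCompactOperator T} := by
  obtain ⟨C, h1, hC⟩ := carSys.exists_maximal Car.subtype
  have hOm : Om ≠ 0 := by
    intro h
    have := congrArg (fun f : Hs => f 0) h
    simp [Om] at this
  have hnt : Nontrivial (Sys.Alg Car.subtype C) := by
    refine ⟨⟨1, 0, fun h => hOm ?_⟩⟩
    have h2 : (1 : Hs →L[ℂ] Hs) = 0 := congrArg Subtype.val h
    exact congrArg (fun T : Hs →L[ℂ] Hs => T Om) h2
  refine ⟨Sys.Alg Car.subtype C, inferInstance, hnt, ?_, ?_⟩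
  · intro H₁ _ _ _ H₂ _ _ _ π₁ π₂ h₁ h₂
    have := nontrivial_of_ne_zero π₁ h₁.1
    have := nontrivial_of_ne_zero π₂ h₂.1
    exact carSys.unique_irrep car_small h1 hC (toUnital π₁ (unital_of_irred π₁ h₁.1 h₁.2))
      (toUnital π₂ (unital_of_irred π₂ h₂.1 h₂.2)) h₁.2 h₂.2
  · rintro H _ _ _ ⟨φ, hφ, hr⟩
    have hone : φ 1 = 1 := by
      ext x
      by_cases hx : x = 0
      · simp [hx]
      have hc : ((ContinuousLinearMap.toSpanSingleton ℂ x).comp (innerSL ℂ x)) ∈ Set.range φ := by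
        rw [hr]
        exact (isCompactOperator_of_locallyCompactSpace_rng
          (ContinuousLinearMap.toSpanSingleton ℂ x)).comp_clm (innerSL ℂ x)
      obtain ⟨a, ha⟩ := hc
      have e1 : φ (1 * a) x = φ 1 (φ a x) := by rw [map_mul]; rfl
      rw [one_mul, ha] at e1
      have e2 : ⟪x, x⟫_ℂ • x = φ 1 (⟪x, x⟫_ℂ • x) := e1
      rw [map_smul] at e2
      exact (smul_right_injective H (inner_self_ne_zero.mpr hx) e2).symm
    have hfin : FiniteDimensional ℂ H := by
      apply FiniteDimensional.of_isCompactOperator_id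
      have : (1 : H →L[ℂ] H) ∈ Set.range φ := ⟨1, hone⟩
      rw [hr] at this
      exact this
    have : Nontrivial H := nontrivial_of_ne_zero φ (by
      intro h
      have : φ 1 = φ 0 := by rw [h]; rfl
      exact one_ne_zero (hφ this))
    obtain ⟨f, hf, -⟩ := carSys.exists_orthonormal
      ((toUnital φ hone).comp (Sys.incl Car.subtype C)) 0 (Module.finrank ℂ H + 1)
    have := hf.linearIndependent.fintype_card_le_finrank
    simp at this

end Vale.Agent.P070
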