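import Vale.Agent.P070.Iter

/-!
The glued algebra: excision of all of its elements by the standard projections.
-/

open scoped InnerProductSpace ComplexConjugate
open Filter Topology

set_option linter.unusedSectionVars false

namespace Vale.Agent.P070

variable {D : Type*} [Ring D] [StarRing D] [Algebra ℂ D] [StarModule ℂ D]
variable {H₀ : Type*} [NormedAddCommGroup H₀] [InnerProductSpace ℂ H₀] [CompleteSpace H₀]

namespace Sys

variable (S : Sys D) (ι : D →⋆ₐ[ℂ] (H₀ →L[ℂ] H₀))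

theorem E_le {k m : ℕ} (h : k ≤ m) : ι (S.e k) * ι (S.e m) = ι (S.e m) := by
  rw [← map_mul, S.e_le h]

theorem E_ge {k m : ℕ} (h : k ≤ m) : ι (S.e m) * ι (S.e k) = ι (S.e m) := by
  rw [← map_mul, S.e_ge h]

theorem star_E (k : ℕ) : star (ι (S.e k)) = ι (S.e k) := by rw [← map_star, S.star_e]

theorem norm_E (k : ℕ) : ‖ι (S.e k)‖ ≤ 1 :=
  IsStarProjection.norm_le _ ⟨S.E_le ι le_rfl, S.star_E ι k⟩

theorem norm_mul_E (y : H₀ →L[ℂ] H₀) (k : ℕ) : ‖y * ι (S.e k)‖ ≤ ‖y‖ :=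
  (norm_mul_le _ _).trans (mul_le_of_le_one_right (norm_nonneg _) (S.norm_E ι k))

theorem norm_E_mul (y : H₀ →L[ℂ] H₀) (k : ℕ) : ‖ι (S.e k) * y‖ ≤ ‖y‖ :=
  (norm_mul_le _ _).trans (mul_le_of_le_one_left (norm_nonneg _) (S.norm_E ι k))

/-- norm excision by the standard projections -/
def Exc (y : H₀ →L[ℂ] H₀) : Prop :=
  ∀ ε : ℝ, 0 < ε → ∃ (k : ℕ) (c : ℂ), ‖ι (S.e k) * y * ι (S.e k) - c • ι (S.e k)‖ ≤ ε

theorem exc_mono (y : H₀ →L[ℂ] H₀) (c : ℂ) {k m : ℕ} (h : k ≤ m) :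
    ‖ι (S.e m) * y * ι (S.e m) - c • ι (S.e m)‖ ≤ ‖ι (S.e k) * y * ι (S.e k) - c • ι (S.e k)‖ := by
  have : ι (S.e m) * y * ι (S.e m) - c • ι (S.e m) =
      ι (S.e m) * (ι (S.e k) * y * ι (S.e k) - c • ι (S.e k)) * ι (S.e m) := by
    rw [mul_sub, sub_mul, mul_smul_comm, smul_mul_assoc, S.E_ge ι h, S.E_le ι le_rfl]
    congr 1
    calc _ = (ι (S.e m) * ι (S.e k)) * y * (ι (S.e k) * ι (S.e m)) := by
          rw [S.E_ge ι h, S.E_le ι h]
      _ = _ := by simp only [mul_assoc]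
  rw [this]
  exact (S.norm_mul_E ι _ _).trans (S.norm_E_mul ι _ _)

theorem near_mono (y : H₀ →L[ℂ] H₀) {k m : ℕ} (h : k ≤ m) :
    ‖y * ι (S.e m)‖ ≤ ‖y * ι (S.e k)‖ := by
  rw [← S.E_le ι h, ← mul_assoc]
  exact S.norm_mul_E ι _ _

variable {S ι}

theorem Exc.add {y z : H₀ →L[ℂ] H₀} (hy : S.Exc ι y) (hz : S.Exc ι z) : S.Exc ι (y + z) := by
  intro ε hε
  obtain ⟨k, c, h1⟩ := hy (ε / 2) (by positivity)
  obtain ⟨l, d, h2⟩ := hz (ε / 2) (by positivity)
  refine ⟨max k l, c + d, ?_⟩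
  have h3 := (S.exc_mono ι y c (le_max_left k l)).trans h1
  have h4 := (S.exc_mono ι z d (le_max_right k l)).trans h2
  have : ι (S.e (max k l)) * (y + z) * ι (S.e (max k l)) - (c + d) • ι (S.e (max k l)) =
      (ι (S.e (max k l)) * y * ι (S.e (max k l)) - c • ι (S.e (max k l))) +
      (ι (S.e (max k l)) * z * ι (S.e (max k l)) - d • ι (S.e (max k l))) := by
    rw [mul_add, add_mul, add_smul]; abel
  rw [this]
  exact (norm_add_le _ _).trans (by linarith)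

theorem Exc.smul {y : H₀ →L[ℂ] H₀} (hy : S.Exc ι y) (z : ℂ) : S.Exc ι (z • y) := by
  intro ε hε
  obtain ⟨k, c, h1⟩ := hy (ε / (‖z‖ + 1)) (by positivity)
  refine ⟨k, z * c, ?_⟩
  rw [mul_smul_comm, smul_mul_assoc, mul_smul, ← smul_sub, norm_smul]
  calc _ ≤ (‖z‖ + 1) * (ε / (‖z‖ + 1)) :=
        mul_le_mul (by linarith) h1 (norm_nonneg _) (by positivity)
    _ = ε := by field_simp

theorem Exc.star {y : H₀ →L[ℂ] H₀} (hy : S.Exc ι y) : S.Exc ι (star y) := by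
  intro ε hε
  obtain ⟨k, c, h1⟩ := hy ε hε
  refine ⟨k, Star.star c, ?_⟩
  rw [← norm_star] at h1
  rw [star_sub, star_mul, star_mul, star_smul, S.star_E, ← mul_assoc] at h1
  exact h1

theorem Exc.of_approx {y : H₀ →L[ℂ] H₀}
    (h : ∀ ε : ℝ, 0 < ε → ∃ w k, S.Exc ι w ∧ ‖(y - w) * ι (S.e k)‖ ≤ ε) : S.Exc ι y := by
  intro ε hε
  obtain ⟨w, k, hw, h1⟩ := h (ε / 2) (by positivity)
  obtain ⟨l, c, h2⟩ := hw (ε / 2) (by positivity)
  refine ⟨max k l, c, ?_⟩
  have h3 := (S.near_mono ι _ (le_max_left k l)).trans h1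
  have h4 := (S.exc_mono ι w c (le_max_right k l)).trans h2
  have h5 := (S.norm_E_mul ι _ (max k l)).trans h3
  have : ι (S.e (max k l)) * y * ι (S.e (max k l)) - c • ι (S.e (max k l)) =
      ι (S.e (max k l)) * ((y - w) * ι (S.e (max k l))) +
      (ι (S.e (max k l)) * w * ι (S.e (max k l)) - c • ι (S.e (max k l))) := by
    noncomm_ring
  rw [this]
  exact (norm_add_le _ _).trans (by linarith)

theorem exc_of_eq {y : H₀ →L[ℂ] H₀} {k : ℕ} {c : ℂ}
    (h : ι (S.e k) * y * ι (S.e k) = c • ι (S.e k)) : S.Exc ι y := fun ε hε =>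
  ⟨k, c, by rw [h, sub_self, norm_zero]; exact hε.le⟩

variable (S ι)

/-- admissible unitaries -/
def Adm (x : H₀ →L[ℂ] H₀) : Prop :=
  x ∈ unitary (H₀ →L[ℂ] H₀) ∧ ∀ k, ∃ d, x * (1 - ι (S.e k)) = ι d

/-- compatible families of admissible unitaries -/
def Fam (C : Set (H₀ →L[ℂ] H₀)) : Prop :=
  (∀ x ∈ C, S.Adm ι x) ∧ ∀ x ∈ C, ∀ x' ∈ C, ∀ b, S.Exc ι (star x * ι b * x')

theorem exists_maximal : ∃ C : Set (H₀ →L[ℂ] H₀), 1 ∈ C ∧ Maximal (S.Fam ι) C := by
  have h1 : S.Fam ι {1} := by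
    constructor
    · rintro x rfl
      exact ⟨one_mem _, fun k => ⟨1 - S.e k, by simp⟩⟩
    · rintro x rfl x' rfl b
      obtain ⟨n, hn⟩ := S.exh b
      obtain ⟨c, hc⟩ := hn (S.o n) (S.o n)
      rw [S.e_eq, S.star_e] at hc
      refine exc_of_eq (k := n) (c := c) ?_
      rw [star_one, one_mul, mul_one, ← map_mul, ← map_mul, hc, map_smul]
  obtain ⟨C, hC1, hC2⟩ := zorn_subset_nonempty {C | S.Fam ι C} (by
    intro c hc hchain _
    refine ⟨⋃₀ c, ⟨?_, ?_⟩, fun s hs => Set.subset_sUnion_of_mem hs⟩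
    · rintro x ⟨s, hs, hx⟩
      exact (hc hs).1 x hx
    · rintro x ⟨s, hs, hx⟩ x' ⟨s', hs', hx'⟩ b
      rcases hchain.total hs hs' with h | h
      · exact (hc hs').2 x (h hx) x' hx' b
      · exact (hc hs).2 x hx x' (h hx') b) {1} h1
  exact ⟨C, hC1 rfl, hC2⟩

/-- the glued algebra -/
noncomputable def Alg (C : Set (H₀ →L[ℂ] H₀)) : StarSubalgebra ℂ (H₀ →L[ℂ] H₀) :=
  (StarAlgebra.adjoin ℂ (Set.range ι ∪ C)).topologicalClosure

instance (C : Set (H₀ →L[ℂ] H₀)) : IsClosed (Alg ι C : Set (H₀ →L[ℂ] H₀)) :=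
  StarSubalgebra.isClosed_topologicalClosure _

theorem mem_Alg_of_mem {C : Set (H₀ →L[ℂ] H₀)} {x : H₀ →L[ℂ] H₀} (hx : x ∈ C) : x ∈ Alg ι C :=
  StarSubalgebra.le_topologicalClosure _ (StarAlgebra.subset_adjoin ℂ _ (Or.inr hx))

theorem mem_Alg_iota (C : Set (H₀ →L[ℂ] H₀)) (b : D) : ι b ∈ Alg ι C :=
  StarSubalgebra.le_topologicalClosure _ (StarAlgebra.subset_adjoin ℂ _ (Or.inl ⟨b, rfl⟩))

theorem exc_Alg {C : Set (H₀ →L[ℂ] H₀)} (h1 : 1 ∈ C) (hC : S.Fam ι C) :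
    ∀ a ∈ Alg ι C, S.Exc ι a := by
  let W : Submodule ℂ (H₀ →L[ℂ] H₀) := Submodule.span ℂ {y | ∃ b, ∃ x ∈ C, y = ι b * x}
  have hWb : ∀ b, ∀ x ∈ C, ι b * x ∈ W := fun b x hx => Submodule.subset_span ⟨b, x, hx, rfl⟩
  let N : Submodule ℂ (H₀ →L[ℂ] H₀) :=
    { carrier := {y | ∀ ε : ℝ, 0 < ε → ∃ w ∈ W, ∃ k, ‖(y - w) * ι (S.e k)‖ ≤ ε}
      add_mem' := by
        intro y z hy hz ε hε
        obtain ⟨w, hw, k, h1⟩ := hy (ε / 2) (by positivity)
        obtain ⟨v, hv, l, h2⟩ := hz (ε / 2) (by positivity)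
        refine ⟨w + v, W.add_mem hw hv, max k l, ?_⟩
        have h3 := (S.near_mono ι _ (le_max_left k l)).trans h1
        have h4 := (S.near_mono ι _ (le_max_right k l)).trans h2
        have : (y + z - (w + v)) * ι (S.e (max k l)) =
            (y - w) * ι (S.e (max k l)) + (z - v) * ι (S.e (max k l)) := by noncomm_ring
        rw [this]
        exact (norm_add_le _ _).trans (by linarith)
      zero_mem' := fun ε hε => ⟨0, W.zero_mem, 0, by simp [hε.le]⟩
      smul_mem' := by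
        intro z y hy ε hε
        obtain ⟨w, hw, k, h1⟩ := hy (ε / (‖z‖ + 1)) (by positivity)
        refine ⟨z • w, W.smul_mem z hw, k, ?_⟩
        rw [← smul_sub, smul_mul_assoc, norm_smul]
        calc _ ≤ (‖z‖ + 1) * (ε / (‖z‖ + 1)) :=
              mul_le_mul (by linarith) h1 (norm_nonneg _) (by positivity)
          _ = ε := by field_simp }
  have hWN : W ≤ N := fun w hw ε hε => ⟨w, hw, 0, by simp [hε.le]⟩
  have hT : ∀ g, (∀ b, ∀ x ∈ C, g * (ι b * x) ∈ N) → ∀ y ∈ N, g * y ∈ N := by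
    intro g hg y hy ε hε
    have hgW : ∀ w ∈ W, g * w ∈ N := by
      intro w hw
      induction hw using Submodule.span_induction with
      | mem w hw => obtain ⟨b, x, hx, rfl⟩ := hw; exact hg b x hx
      | zero => rw [mul_zero]; exact N.zero_mem
      | add a b _ _ ha hb => rw [mul_add]; exact N.add_mem ha hb
      | smul c a _ ha => rw [mul_smul_comm]; exact N.smul_mem c ha
    obtain ⟨w, hw, k, h1⟩ := hy (ε / 2 / (‖g‖ + 1)) (by positivity)
    obtain ⟨v, hv, l, h2⟩ := hgW w hw (ε / 2) (by positivity)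
    refine ⟨v, hv, max k l, ?_⟩
    have h3 := (S.near_mono ι _ (le_max_left k l)).trans h1
    have h4 := (S.near_mono ι _ (le_max_right k l)).trans h2
    have h5 : ‖g * ((y - w) * ι (S.e (max k l)))‖ ≤ ε / 2 :=
      calc _ ≤ ‖g‖ * ‖(y - w) * ι (S.e (max k l))‖ := norm_mul_le _ _
        _ ≤ (‖g‖ + 1) * (ε / 2 / (‖g‖ + 1)) :=
          mul_le_mul (by linarith) h3 (norm_nonneg _) (by positivity)
        _ = ε / 2 := by field_simp
    have : (g * y - v) * ι (S.e (max k l)) =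
        g * ((y - w) * ι (S.e (max k l))) + (g * w - v) * ι (S.e (max k l)) := by noncomm_ring
    rw [this]
    exact (norm_add_le _ _).trans (by linarith)
  have hTi : ∀ d, ∀ y ∈ N, ι d * y ∈ N := fun d => hT _ fun b x hx => by
    rw [← mul_assoc, ← map_mul]
    exact hWN (hWb _ _ hx)
  have hTx : ∀ x ∈ C, ∀ y ∈ N, x * y ∈ N := by
    intro x hx
    refine hT _ fun b x' hx' ε hε => ?_
    obtain ⟨k, c, hk⟩ := hC.2 1 h1 x' hx' b ε hε
    obtain ⟨d, hd⟩ := (hC.1 x hx).2 k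
    refine ⟨ι (d * b) * x' + c • (ι 1 * x), W.add_mem (hWb _ _ hx') (W.smul_mem _ (hWb _ _ hx)),
      k, ?_⟩
    rw [star_one, one_mul] at hk
    have : (x * (ι b * x') - (ι (d * b) * x' + c • (ι 1 * x))) * ι (S.e k) =
        x * (ι (S.e k) * (ι b * x') * ι (S.e k) - c • ι (S.e k)) := by
      rw [map_mul, ← hd, map_one]
      simp only [mul_sub, sub_mul, add_mul, mul_smul_comm, smul_mul_assoc, mul_assoc, one_mul,
        mul_one]
      abel
    rw [this, CStarRing.norm_mem_unitary_mul _ (hC.1 x hx).1]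
    exact hk
  have hTs : ∀ x ∈ C, ∀ y ∈ N, star x * y ∈ N := by
    intro x hx
    refine hT _ fun b x' hx' ε hε => ?_
    obtain ⟨k, c, hk⟩ := hC.2 x hx x' hx' b ε hε
    obtain ⟨d, hd⟩ := (hC.1 x hx).2 k
    refine ⟨ι (star d * b) * x' + c • (ι 1 * 1),
      W.add_mem (hWb _ _ hx') (W.smul_mem _ (hWb _ _ h1)), k, ?_⟩
    have : (star x * (ι b * x') - (ι (star d * b) * x' + c • (ι 1 * 1))) * ι (S.e k) =
        ι (S.e k) * (star x * ι b * x') * ι (S.e k) - c • ι (S.e k) := by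
      rw [map_mul, map_star, ← hd, map_one, star_mul, star_sub, star_one, S.star_E]
      simp only [sub_mul, add_mul, smul_mul_assoc, mul_assoc, one_mul]
      abel
    rw [this]
    exact hk
  have hadj : ∀ g ∈ StarAlgebra.adjoin ℂ (Set.range ι ∪ C),
      (∀ y ∈ N, g * y ∈ N) ∧ ∀ y ∈ N, star g * y ∈ N := by
    intro g hg
    induction hg using StarAlgebra.adjoin_induction with
    | mem g hg =>
      rcases hg with ⟨d, rfl⟩ | hg
      · exact ⟨hTi d, by rw [← map_star]; exact hTi _⟩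
      · exact ⟨hTx g hg, hTs g hg⟩
    | algebraMap r =>
      rw [← AlgHomClass.commutes ι r]
      exact ⟨hTi _, by rw [← map_star]; exact hTi _⟩
    | add a b _ _ ha hb =>
      refine ⟨fun y hy => ?_, fun y hy => ?_⟩
      · rw [add_mul]; exact N.add_mem (ha.1 y hy) (hb.1 y hy)
      · rw [star_add, add_mul]; exact N.add_mem (ha.2 y hy) (hb.2 y hy)
    | mul a b _ _ ha hb =>
      refine ⟨fun y hy => ?_, fun y hy => ?_⟩
      · rw [mul_assoc]; exact ha.1 _ (hb.1 y hy)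
      · rw [star_mul, mul_assoc]; exact hb.2 _ (ha.2 y hy)
    | star a _ ha => exact ⟨ha.2, by rw [star_star]; exact ha.1⟩
  have hWE : ∀ w ∈ W, S.Exc ι w := by
    intro w hw
    induction hw using Submodule.span_induction with
    | mem w hw =>
      obtain ⟨b, x, hx, rfl⟩ := hw
      have := hC.2 1 h1 x hx b
      rwa [star_one, one_mul] at this
    | zero => exact exc_of_eq (k := 0) (c := 0) (by simp)
    | add a b _ _ ha hb => exact ha.add hb
    | smul c a _ ha => exact ha.smul c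
  have hNE : ∀ y ∈ N, S.Exc ι y := fun y hy => Exc.of_approx fun ε hε => by
    obtain ⟨w, hw, k, hk⟩ := hy ε hε
    exact ⟨w, k, hWE w hw, hk⟩
  have h1N : (1 : H₀ →L[ℂ] H₀) ∈ N := by
    have := hWN (hWb 1 1 h1)
    rwa [map_one, mul_one] at this
  intro a ha
  refine Exc.of_approx fun ε hε => ?_
  have ha' : a ∈ closure (StarAlgebra.adjoin ℂ (Set.range ι ∪ C) : Set (H₀ →L[ℂ] H₀)) := ha
  obtain ⟨g, hg, hag⟩ := Metric.mem_closure_iff.mp ha' ε hε
  refine ⟨g, 0, ?_, (S.norm_mul_E ι _ _).trans ?_⟩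
  · have := (hadj g hg).1 1 h1N
    rw [mul_one] at this
    exact hNE g this
  · rw [← dist_eq_norm]; exact hag.le

/-- the inclusion of the base algebra in the glued algebra -/
noncomputable def incl (C : Set (H₀ →L[ℂ] H₀)) : D →⋆ₐ[ℂ] Alg ι C :=
  ι.codRestrict (Alg ι C) (mem_Alg_iota ι C)

theorem coe_incl (C : Set (H₀ →L[ℂ] H₀)) (b : D) : (incl ι C b : H₀ →L[ℂ] H₀) = ι b := rfl

theorem Alg_induction {C : Set (H₀ →L[ℂ] H₀)} (P : Alg ι C → Prop) (hcl : IsClosed {a | P a})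
    (h1 : ∀ b, P (incl ι C b)) (h2 : ∀ x (hx : x ∈ C), P ⟨x, mem_Alg_of_mem ι hx⟩)
    (hadd : ∀ a b, P a → P b → P (a + b)) (hmul : ∀ a b, P a → P b → P (a * b))
    (hstar : ∀ a, P a → P (star a)) (a : Alg ι C) : P a := by
  have hadj : ∀ g (hg : g ∈ StarAlgebra.adjoin ℂ (Set.range ι ∪ C)),
      P ⟨g, StarSubalgebra.le_topologicalClosure _ hg⟩ := by
    intro g hg
    induction hg using StarAlgebra.adjoin_induction with
    | mem g hg =>
      rcases hg with ⟨d, rfl⟩ | hg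
      · exact h1 d
      · exact h2 g hg
    | algebraMap r =>
      convert h1 (algebraMap ℂ D r) using 1
      apply Subtype.ext
      rw [coe_incl, AlgHomClass.commutes ι r]
    | add a b ha' hb' ha hb =>
      have := hadd _ _ ha hb
      convert this using 1
      exact Subtype.ext rfl
    | mul a b ha' hb' ha hb =>
      have := hmul _ _ ha hb
      convert this using 1
      exact Subtype.ext rfl
    | star a ha' ha =>
      have := hstar _ ha
      convert this using 1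
      exact Subtype.ext rfl
  have ha' : (a : H₀ →L[ℂ] H₀) ∈
      closure (StarAlgebra.adjoin ℂ (Set.range ι ∪ C) : Set (H₀ →L[ℂ] H₀)) := a.2
  obtain ⟨g, hg, hga⟩ := mem_closure_iff_seq_limit.mp ha'
  have : Tendsto (fun n => (⟨g n, StarSubalgebra.le_topologicalClosure _ (hg n)⟩ : Alg ι C))
      atTop (𝓝 a) := tendsto_subtype_rng.mpr hga
  exact hcl.mem_of_tendsto this (Eventually.of_forall fun n => hadj _ (hg n))

end Sys

end Vale.Agent.P070
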