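import Vale.Agent.P070.Sys

/-!
The inductive step of the Powers type construction of excising projections.
-/

open scoped InnerProductSpace ComplexConjugate
open Filter Topology

set_option linter.unusedSectionVars false

namespace Vale.Agent.P070

variable {D : Type*} [Ring D] [StarRing D] [Algebra ℂ D] [StarModule ℂ D]
variable {H : Type*} [NormedAddCommGroup H] [InnerProductSpace ℂ H] [CompleteSpace H]

theorem norm_rep_unitary (σ : D →⋆ₐ[ℂ] (H →L[ℂ] H)) {u : D} (hu : u ∈ unitary D) (x : H) :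
    ‖σ u x‖ = ‖x‖ := by
  have h : ⟪σ u x, σ u x⟫_ℂ = ⟪x, x⟫_ℂ := by
    rw [inner_rep_left, ← rep_mul, hu.1, map_one]; rfl
  rw [@norm_eq_sqrt_re_inner ℂ, h, ← @norm_eq_sqrt_re_inner ℂ]

theorem exists_normalize (T : H →L[ℂ] H) {η : H} (h0 : η ≠ 0) (hT : T η = η) :
    ∃ c : ℂ, ‖c • η‖ = 1 ∧ T (c • η) = c • η := by
  refine ⟨((‖η‖⁻¹ : ℝ) : ℂ), ?_, by rw [map_smul, hT]⟩
  rw [norm_smul, Complex.norm_real, norm_inv, norm_norm,
    inv_mul_cancel₀ (norm_ne_zero_iff.mpr h0)]

namespace Sys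

variable (S : Sys D)

theorem sum_rep (σ : D →⋆ₐ[ℂ] (H →L[ℂ] H)) (n : ℕ) (x : H) :
    ∑ i, σ (S.s n i) (σ (star (S.s n i)) x) = x := by
  have := congrArg (fun a => σ a x) (S.sum n)
  simp only [map_sum, map_one, sum_apply, rep_mul] at this
  exact this

theorem exists_unit [Nontrivial H] (σ : D →⋆ₐ[ℂ] (H →L[ℂ] H)) (m : ℕ) :
    ∃ ζ : H, ‖ζ‖ = 1 ∧ σ (S.e m) ζ = ζ := by
  obtain ⟨x, hx⟩ := exists_ne (0 : H)
  have : ∃ i, σ (star (S.s m i)) x ≠ 0 := by
    by_contra hn
    push Not at hn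
    apply hx
    rw [← S.sum_rep σ m x]
    simp only [hn, map_zero, Finset.sum_const_zero]
  obtain ⟨i, hi⟩ := this
  obtain ⟨c, h1, h2⟩ := exists_normalize (σ (S.e m)) hi (by rw [← rep_mul, S.e_star_s])
  exact ⟨_, h1, h2⟩

theorem exists_orthonormal [Nontrivial H] (σ : D →⋆ₐ[ℂ] (H →L[ℂ] H)) (m N : ℕ) :
    ∃ f : Fin N → H, Orthonormal ℂ f ∧ ∀ j, σ (S.e m) (f j) = f j := by
  obtain ⟨m', -, t, h1, h2, -, -⟩ := S.room m N
  obtain ⟨ζ, hζ, hζe⟩ := S.exists_unit σ m'
  refine ⟨fun j => σ (t j) ζ, ?_, fun j => by rw [← rep_mul, h2]⟩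
  rw [orthonormal_iff_ite]
  intro j l
  rw [inner_rep_left, ← rep_mul, h1]
  split_ifs
  · rw [hζe, inner_self_eq_norm_sq_to_K, hζ]; simp
  · simp

theorem exists_orth [Nontrivial H] (σ : D →⋆ₐ[ℂ] (H →L[ℂ] H)) (m : ℕ) {κ : Type*} [Fintype κ]
    (v : κ → H) : ∃ ζ : H, ‖ζ‖ = 1 ∧ σ (S.e m) ζ = ζ ∧ ∀ i, ⟪v i, ζ⟫_ℂ = 0 := by
  obtain ⟨f, hf, hfe⟩ := S.exists_orthonormal σ m (Fintype.card κ + 1)
  let Φ : (Fin (Fintype.card κ + 1) → ℂ) →ₗ[ℂ] (κ → ℂ) :=
    LinearMap.pi fun i => (innerSL ℂ (v i)).toLinearMap ∘ₗ Fintype.linearCombination ℂ f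
  have hker : LinearMap.ker Φ ≠ ⊥ := LinearMap.ker_ne_bot_of_finrank_lt (by simp)
  obtain ⟨c, hc, hc0⟩ := Submodule.exists_mem_ne_zero_of_ne_bot hker
  have hη : Fintype.linearCombination ℂ f c ≠ 0 := by
    intro h
    apply hc0
    funext j
    exact Fintype.linearIndependent_iff.mp hf.linearIndependent c
      (by rwa [Fintype.linearCombination_apply] at h) j
  obtain ⟨z, h1, h2⟩ := exists_normalize (σ (S.e m)) hη (by
    simp only [Fintype.linearCombination_apply, map_sum, map_smul, hfe])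
  refine ⟨_, h1, h2, fun i => ?_⟩
  have : ⟪v i, Fintype.linearCombination ℂ f c⟫_ℂ = 0 := congrFun (LinearMap.mem_ker.mp hc) i
  rw [inner_smul_right, this, mul_zero]

theorem exists_swap {κ : Type*} [Fintype κ] (x y : κ → H)
    (h1 : ∀ i j, ⟪y i, y j⟫_ℂ = ⟪x i, x j⟫_ℂ) (h2 : ∀ i j, ⟪x i, y j⟫_ℂ = 0) :
    ∃ R : H →L[ℂ] H, IsSelfAdjoint R ∧ (∀ i, R (x i) = y i) ∧ ∀ i, R (y i) = x i := by
  let K : Submodule ℂ H := Submodule.span ℂ (Set.range fun i => x i - y i)
  have : FiniteDimensional ℂ K := FiniteDimensional.span_of_finite ℂ (Set.finite_range _)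
  have hm : ∀ i, K.starProjection (x i - y i) = x i - y i := fun i =>
    Submodule.starProjection_eq_self_iff.mpr (Submodule.subset_span ⟨i, rfl⟩)
  have hp : ∀ i, K.starProjection (x i + y i) = 0 := by
    intro i
    rw [Submodule.starProjection_apply_eq_zero_iff, Submodule.mem_orthogonal]
    intro u hu
    induction hu using Submodule.span_induction with
    | mem u hu =>
      obtain ⟨j, rfl⟩ := hu
      have h3 : ⟪y j, x i⟫_ℂ = 0 := by rw [← inner_conj_symm, h2]; simp
      simp only [inner_sub_left, inner_add_right, h1, h2, h3]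
      ring
    | zero => simp
    | add a b _ _ ha hb => rw [inner_add_left, ha, hb, add_zero]
    | smul c a _ ha => rw [inner_smul_left, ha, mul_zero]
  have hx : ∀ i, K.starProjection (x i) = (1 / 2 : ℂ) • (x i - y i) := by
    intro i
    have : x i = (1 / 2 : ℂ) • ((x i - y i) + (x i + y i)) := by module
    conv_lhs => rw [this]
    rw [map_smul, map_add, hm, hp, add_zero]
  have hy : ∀ i, K.starProjection (y i) = -(1 / 2 : ℂ) • (x i - y i) := by
    intro i
    have : y i = -(1 / 2 : ℂ) • ((x i - y i) - (x i + y i)) := by module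
    conv_lhs => rw [this]
    rw [map_smul, map_sub, hm, hp, sub_zero]
  refine ⟨1 - (2 : ℂ) • K.starProjection, ?_, fun i => ?_, fun i => ?_⟩
  · have h := (isSelfAdjoint_starProjection K).star_eq
    show star _ = _
    rw [star_sub, star_one, star_smul, h]
    simp
  · show x i - (2 : ℂ) • K.starProjection (x i) = y i
    rw [hx]; module
  · show y i - (2 : ℂ) • K.starProjection (y i) = x i
    rw [hy]; module

theorem exists_gram_factor {κ : Type*} [Fintype κ] [DecidableEq κ] (x : κ → H) :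
    ∃ C : κ → κ → ℂ, ∀ i j, ∑ l, star (C l i) * C l j = ⟪x i, x j⟫_ℂ := by
  open scoped MatrixOrder ComplexOrder in
  obtain ⟨B, hB⟩ := CStarAlgebra.nonneg_iff_eq_star_mul_self.mp
    (Matrix.posSemidef_gram ℂ x).nonneg
  refine ⟨fun l i => B l i, fun i j => ?_⟩
  have := congrFun (congrFun hB i) j
  rw [Matrix.gram_apply, Matrix.mul_apply] at this
  rw [this]
  simp [Matrix.star_apply]

theorem step [Nontrivial H] {σ : D →⋆ₐ[ℂ] (H →L[ℂ] H)} (hσ : Irr σ) {k n : ℕ} (hkn : k ≤ n)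
    {ξ : H} (hξ : ‖ξ‖ = 1) (hξe : σ (S.e k) ξ = ξ) {ε : ℝ} (hε : 0 < ε) :
    ∃ m > n, ∃ w ∈ unitary D, w * (1 - S.e k) = 1 - S.e k ∧
      (∀ b, S.M n b → ∃ c : ℂ, S.e m * star w * b * w * S.e m = c • S.e m) ∧
      ∃ ζ : H, ‖ζ‖ = 1 ∧ σ (S.e m) ζ = ζ ∧ ‖σ w ζ - ξ‖ < ε := by
  set x : S.I n → H := fun i => σ (star (S.s n i)) ξ with hx
  have hxe : ∀ i, σ (S.e n) (x i) = x i := fun i => by
    simp only [hx]; rw [← rep_mul, S.e_star_s]
  have hxs : ∑ i, σ (S.s n i) (x i) = ξ := S.sum_rep σ n ξ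
  obtain ⟨C, hC⟩ := exists_gram_factor x
  obtain ⟨m, hm, t, ht1, ht2, ht3, ht4⟩ := S.room' n (S.I n)
  set y : S.I n → D := fun i => ∑ l, C l i • t l with hy
  have hy1 : ∀ i j, star (y i) * y j = ⟪x i, x j⟫_ℂ • S.e m := by
    intro i j
    simp only [hy, star_sum, Finset.sum_mul, Finset.mul_sum, star_smul, smul_mul_smul_comm, ht1,
      ← hC, Finset.sum_smul]
    refine Finset.sum_congr rfl fun l _ => ?_
    rw [Finset.sum_eq_single l]
    · simp
    · intro l' _ hl
      simp [hl]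
    · simp
  have hy2 : ∀ i, S.e n * y i = y i := fun i => by
    simp only [hy, Finset.mul_sum, mul_smul_comm, ht2]
  have hy3 : ∀ i, S.e m * y i = 0 := fun i => by
    simp only [hy, Finset.mul_sum, mul_smul_comm, ht3, smul_zero, Finset.sum_const_zero]
  have hy4 : ∀ i, y i * S.e m = y i := fun i => by
    simp only [hy, Finset.sum_mul, smul_mul_assoc, ht4]
  set V : D := ∑ i, S.s n i * y i with hV
  have hsV : ∀ i, star (S.s n i) * V = y i := by
    intro i
    rw [hV, Finset.mul_sum, Finset.sum_eq_single i]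
    · rw [← mul_assoc, S.orth, if_pos rfl, hy2]
    · intro j _ hj
      rw [← mul_assoc, S.orth, if_neg (Ne.symm hj), zero_mul]
    · simp
  have hVb : ∀ b, S.M n b → star V * b * V = ⟪ξ, σ b ξ⟫_ℂ • S.e m := by
    intro b hb
    choose c hc using hb
    have e1 : ⟪ξ, σ b ξ⟫_ℂ = ∑ i, ∑ j, c i j * ⟪x i, x j⟫_ℂ := by
      conv_lhs => rw [← hxs]
      rw [sum_inner]
      refine Finset.sum_congr rfl fun i _ => ?_
      rw [map_sum, inner_sum]
      refine Finset.sum_congr rfl fun j _ => ?_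
      rw [inner_rep_left, ← rep_mul, ← rep_mul, hc, map_smul]
      simp [hxe]
    rw [e1, hV, star_sum, Finset.sum_mul, Finset.sum_mul, Finset.sum_smul]
    refine Finset.sum_congr rfl fun i _ => ?_
    rw [Finset.mul_sum, Finset.sum_smul]
    refine Finset.sum_congr rfl fun j _ => ?_
    calc _ = star (y i) * (star (S.s n i) * b * S.s n j) * y j := by
          simp only [star_mul, mul_assoc]
      _ = _ := by
          rw [hc, mul_smul_comm, smul_mul_assoc, mul_assoc, hy2, hy1, smul_smul]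
  have hξξ : ⟪ξ, ξ⟫_ℂ = 1 := by rw [inner_self_eq_norm_sq_to_K, hξ]; simp
  have hVV : star V * V = S.e m := by
    have := hVb 1 (S.M_one n)
    rw [mul_one, map_one] at this
    rw [this]
    show ⟪ξ, ξ⟫_ℂ • S.e m = S.e m
    rw [hξξ, one_smul]
  have hVe : V * S.e m = V := by
    simp only [hV, Finset.sum_mul, mul_assoc, hy4]
  have heV : S.e m * V = 0 := by
    have h1 := hsV (S.o n)
    rw [S.e_eq, S.star_e] at h1
    rw [← S.e_ge hm.le, mul_assoc, h1, hy3]
  have hpV : S.e k * V = V := by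
    have h1 := hVb (S.e k) (S.M_e hkn)
    rw [hξe, hξξ, one_smul] at h1
    have h2 : star ((1 - S.e k) * V) * ((1 - S.e k) * V) = 0 := by
      have : star ((1 - S.e k) * V) * ((1 - S.e k) * V) =
          star V * V - star V * S.e k * V - star V * S.e k * V +
            star V * (S.e k * S.e k) * V := by
        rw [star_mul, star_sub, star_one, S.star_e]
        noncomm_ring
      rw [this, S.e_e, h1, hVV]
      abel
    have h3 := S.star_zero _ h2
    rw [sub_mul, one_mul, sub_eq_zero] at h3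
    exact h3.symm
  obtain ⟨ζ, hζ, hζe, hζo⟩ := S.exists_orth σ m
    (fun p : S.I n × S.I n => σ (star (y p.2)) (x p.1))
  set x' : S.I n → H := fun i => σ (y i) ζ with hx'
  have hζζ : ⟪ζ, ζ⟫_ℂ = 1 := by rw [inner_self_eq_norm_sq_to_K, hζ]; simp
  obtain ⟨R, hR, hR1, hR2⟩ := exists_swap x x' (by
      intro i j
      simp only [hx']
      rw [inner_rep_left, ← rep_mul, hy1, map_smul]
      simp only [smul_apply]
      rw [hζe, inner_smul_right, hζζ, mul_one]) (by
      intro i j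
      simp only [hx']
      rw [inner_rep_right]
      exact hζo (i, j))
  set C0 : ℝ := ∑ i, ‖σ (S.s n i)‖ + 1 with hC0
  have hC0pos : 0 < C0 := by positivity
  obtain ⟨a, ha, hax⟩ := density_sa hσ (ι := S.I n ⊕ S.I n) (Sum.elim x x') R hR
    (ε := ε / (2 * C0)) (by positivity)
  set ξ' : H := σ V ζ with hξ'
  have hx's : ∀ i, σ (star (S.s n i)) ξ' = x' i := fun i => by
    rw [hξ', ← rep_mul, hsV]
  have hest : ∀ (d : S.I n → H), (∀ i, ‖d i‖ < ε / (2 * C0)) →
      ‖∑ i, σ (S.s n i) (d i)‖ < ε / 2 := by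
    intro d hd
    calc _ ≤ ∑ i, ‖σ (S.s n i) (d i)‖ := norm_sum_le _ _
      _ ≤ ∑ i, ‖σ (S.s n i)‖ * (ε / (2 * C0)) := Finset.sum_le_sum fun i _ =>
          (ContinuousLinearMap.le_opNorm _ _).trans
            (mul_le_mul_of_nonneg_left (hd i).le (norm_nonneg _))
      _ = (∑ i, ‖σ (S.s n i)‖) * (ε / (2 * C0)) := by rw [Finset.sum_mul]
      _ < C0 * (ε / (2 * C0)) := mul_lt_mul_of_pos_right (by linarith) (by positivity)
      _ = ε / 2 := by field_simp
  have havg : ∀ v, σ (S.avg n a) v = ∑ i, σ (S.s n i) (σ a (σ (star (S.s n i)) v)) := by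
    intro v
    simp only [PreSys.avg, map_sum, sum_apply, rep_mul]
  have hd1 : ‖σ (S.avg n a) ξ - ξ'‖ < ε / 2 := by
    have := hest (fun i => σ a (x i) - x' i) (fun i => by
      have := hax (Sum.inl i)
      simp only [Sum.elim_inl, hR1] at this
      exact this)
    simp only [map_sub, Finset.sum_sub_distrib] at this
    rw [havg, ← S.sum_rep σ n ξ']
    simp only [hx's]
    exact this
  have hd2 : ‖σ (S.avg n a) ξ' - ξ‖ < ε / 2 := by
    have := hest (fun i => σ a (x' i) - x i) (fun i => by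
      have := hax (Sum.inr i)
      simp only [Sum.elim_inr, hR2] at this
      exact this)
    simp only [map_sub, Finset.sum_sub_distrib] at this
    rw [havg]
    simp only [hx's]
    rw [hxs] at this
    exact this
  obtain ⟨u, hu, huc, hua⟩ := cayley (S.avg n a) (S.avg_sa n ha) (S.inv _ (S.avg_sa n ha))
  have hub : ∀ b, S.M n b → Commute u b := fun b hb => huc b (S.avg_comm n a hb)
  obtain ⟨w, hw, hw1, hw2⟩ := swap_facts (S.e m) (S.e k) V u (S.star_e m) (S.e_e m) (S.star_e k)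
    (S.e_e k) (S.e_ge (hkn.trans hm.le)) hVV hVe heV hpV hu (hub _ (S.M_e hkn))
  refine ⟨m, hm, w, hw, hw1, fun b hb => ⟨⟪ξ, σ b ξ⟫_ℂ, ?_⟩, ζ, hζ, hζe, ?_⟩
  · have h1 : S.e m * star w = star V * star u := by
      have := congrArg star hw2
      rwa [star_mul, S.star_e, star_mul] at this
    calc _ = (S.e m * star w) * b * (w * S.e m) := by simp only [mul_assoc]
      _ = star V * (star u * (b * u)) * V := by rw [h1, hw2]; simp only [mul_assoc]
      _ = _ := by rw [← (hub b hb).eq, ← mul_assoc (star u), hu.1, one_mul, hVb b hb]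
  · have h1 : σ w ζ = σ u ξ' := by
      rw [← hζe, ← rep_mul, hw2, rep_mul]
    set d1 := σ (S.avg n a) ξ - ξ' with hd1def
    set d2 := σ (S.avg n a) ξ' - ξ with hd2def
    have e1 : σ (S.avg n a) ξ = ξ' + d1 := by rw [hd1def]; abel
    have e2 : σ (S.avg n a) ξ' = ξ + d2 := by rw [hd2def]; abel
    set η : H := (1 / 2 : ℂ) • (ξ - Complex.I • ξ') with hη
    set d : H := (1 / 2 : ℂ) • (d1 - Complex.I • d2) with hd
    have h2 := congrArg (fun z => σ z η) hua
    simp only [rep_mul, map_add, map_smul, map_sub, map_one, add_apply,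
      smul_apply, sub_apply,
      one_apply_eq_self] at h2
    have hII : Complex.I * Complex.I = -1 := Complex.I_mul_I
    have e3 : σ (S.avg n a) η = (1 / 2 : ℂ) • (ξ' - Complex.I • ξ) + d := by
      rw [hη, map_smul, map_sub, map_smul, e1, e2, hd]
      module
    have e4 : σ (S.avg n a) η + Complex.I • η = ξ' + d := by
      rw [e3, hη]
      match_scalars <;> simp <;> ring_nf <;> simp [Complex.I_sq] <;> ring
    have e5 : Complex.I • (σ (S.avg n a) η - Complex.I • η) = ξ + Complex.I • d := by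
      rw [e3, hη]
      match_scalars <;> simp <;> ring_nf <;> simp [Complex.I_sq] <;> ring
    have h3 : σ u ξ' - ξ = Complex.I • d - σ u d := by
      have h4 : σ u (ξ' + d) = ξ + Complex.I • d := by
        rw [← e4, ← e5, map_add, map_smul (σ u)]
        exact h2
      rw [map_add] at h4
      rw [sub_eq_sub_iff_add_eq_add, h4, add_comm]
    have h5 : ‖d‖ ≤ (‖d1‖ + ‖d2‖) / 2 := by
      rw [hd, norm_smul]
      have := norm_sub_le d1 (Complex.I • d2)
      rw [norm_smul, Complex.norm_I, one_mul] at this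
      have h6 : ‖(1 / 2 : ℂ)‖ = 1 / 2 := by simp
      rw [h6]; linarith
    rw [h1, h3]
    have h7 := norm_sub_le (Complex.I • d) (σ u d)
    rw [norm_smul, Complex.norm_I, one_mul, norm_rep_unitary σ hu] at h7
    linarith

end Sys

end Vale.Agent.P070
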