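import Vale.Agent.P070.Density

/-!
Abstract towers of matrix units (algebraic UHF algebras).
-/

open scoped InnerProductSpace ComplexConjugate
open Filter Topology

set_option linter.unusedSectionVars false

namespace Vale.Agent.P070

/-- A tower of full matrix unit systems in a star algebra. -/
structure PreSys (D : Type*) [Ring D] [StarRing D] [Algebra ℂ D] [StarModule ℂ D] where
  I : ℕ → Type
  fin : ∀ n, Fintype (I n)
  dec : ∀ n, DecidableEq (I n)
  o : ∀ n, I n
  s : ∀ n, I n → D
  e : ℕ → D
  e_eq : ∀ n, s n (o n) = e n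
  orth : ∀ n i j, star (s n i) * s n j = if i = j then e n else 0
  sum : ∀ n, ∑ i, s n i * star (s n i) = 1
  mono : ∀ n b, (∀ i j, ∃ c : ℂ, star (s n i) * b * s n j = c • e n) →
    ∀ i j, ∃ c : ℂ, star (s (n + 1) i) * b * s (n + 1) j = c • e (n + 1)
  e_succ : ∀ n, e n * e (n + 1) = e (n + 1)

attribute [instance] PreSys.fin PreSys.dec

/-- A tower of full matrix unit systems exhausting a star algebra. -/
structure Sys (D : Type*) [Ring D] [StarRing D] [Algebra ℂ D] [StarModule ℂ D]
    extends PreSys D where
  exh : ∀ b, ∃ n, ∀ i j, ∃ c : ℂ, star (s n i) * b * s n j = c • e n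
  room : ∀ n N, ∃ m > n, ∃ t : Fin N → D,
    (∀ j l, star (t j) * t l = if j = l then e m else 0) ∧ (∀ j, e n * t j = t j) ∧
      (∀ j, e m * t j = 0) ∧ (∀ j, t j * e m = t j)
  star_zero : ∀ x : D, star x * x = 0 → x = 0
  inv : ∀ a : D, IsSelfAdjoint a → IsUnit (a + Complex.I • (1 : D))

variable {D : Type*} [Ring D] [StarRing D] [Algebra ℂ D] [StarModule ℂ D]

namespace PreSys

variable (S : PreSys D)

/-- membership in the `n`-th matrix algebra -/
def M (n : ℕ) (b : D) : Prop := ∀ i j, ∃ c : ℂ, star (S.s n i) * b * S.s n j = c • S.e n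

theorem e_star_mul (n : ℕ) : star (S.e n) * S.e n = S.e n := by
  have := S.orth n (S.o n) (S.o n)
  rwa [S.e_eq, if_pos rfl] at this

theorem star_e (n : ℕ) : star (S.e n) = S.e n := by
  rw [← S.e_star_mul n, star_mul, star_star]

theorem e_e (n : ℕ) : S.e n * S.e n = S.e n := by
  have := S.e_star_mul n
  rwa [S.star_e] at this

theorem s_e (n : ℕ) (i : S.I n) : S.s n i * S.e n = S.s n i := by
  have h : S.s n i = (∑ j, S.s n j * star (S.s n j)) * S.s n i := by rw [S.sum, one_mul]
  conv_rhs => rw [h]
  rw [Finset.sum_mul, Finset.sum_eq_single i]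
  · rw [mul_assoc, S.orth, if_pos rfl]
  · intro j _ hj
    rw [mul_assoc, S.orth, if_neg hj, mul_zero]
  · simp

theorem e_star_s (n : ℕ) (i : S.I n) : S.e n * star (S.s n i) = star (S.s n i) := by
  have := congrArg star (S.s_e n i)
  rwa [star_mul, S.star_e] at this

theorem e_s (n : ℕ) (i : S.I n) : S.e n * S.s n i = if S.o n = i then S.e n else 0 := by
  have := S.orth n (S.o n) i
  rwa [S.e_eq, S.star_e] at this

theorem e_le {k m : ℕ} (h : k ≤ m) : S.e k * S.e m = S.e m := by
  induction m, h using Nat.le_induction with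
  | base => exact S.e_e k
  | succ m _ ih => rw [← S.e_succ m, ← mul_assoc, ih]

theorem e_ge {k m : ℕ} (h : k ≤ m) : S.e m * S.e k = S.e m := by
  have := congrArg star (S.e_le h)
  rwa [star_mul, S.star_e, S.star_e] at this

variable {S}

theorem M.mono {n m : ℕ} {b : D} (hb : S.M n b) (h : n ≤ m) : S.M m b := by
  induction m, h using Nat.le_induction with
  | base => exact hb
  | succ m _ ih => exact S.mono m b ih

theorem M.mul {n : ℕ} {a b : D} (ha : S.M n a) (hb : S.M n b) : S.M n (a * b) := by
  intro i j
  choose c hc using ha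
  choose d hd using hb
  refine ⟨∑ l, c i l * d l j, ?_⟩
  have : a * b = a * (∑ l, S.s n l * star (S.s n l)) * b := by rw [S.sum, mul_one]
  rw [this, Finset.mul_sum, Finset.sum_mul, Finset.mul_sum, Finset.sum_mul, Finset.sum_smul]
  refine Finset.sum_congr rfl fun l _ => ?_
  calc _ = (star (S.s n i) * a * S.s n l) * (star (S.s n l) * b * S.s n j) := by
        simp only [mul_assoc]
    _ = _ := by rw [hc, hd, smul_mul_smul_comm, S.e_e]

theorem M.star {n : ℕ} {a : D} (ha : S.M n a) : S.M n (star a) := by
  intro i j
  obtain ⟨c, hc⟩ := ha j i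
  refine ⟨Star.star c, ?_⟩
  have := congrArg Star.star hc
  rw [star_mul, star_mul, star_star, star_smul, S.star_e] at this
  rw [← this, mul_assoc]

theorem M.add {n : ℕ} {a b : D} (ha : S.M n a) (hb : S.M n b) : S.M n (a + b) := by
  intro i j
  obtain ⟨c, hc⟩ := ha i j
  obtain ⟨d, hd⟩ := hb i j
  exact ⟨c + d, by rw [mul_add, add_mul, hc, hd, add_smul]⟩

theorem M.smul {n : ℕ} {a : D} (ha : S.M n a) (z : ℂ) : S.M n (z • a) := by
  intro i j
  obtain ⟨c, hc⟩ := ha i j
  exact ⟨z * c, by rw [mul_smul_comm, smul_mul_assoc, hc, smul_smul]⟩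

variable (S)

theorem M_one (n : ℕ) : S.M n 1 := by
  intro i j
  rw [mul_one, S.orth]
  split_ifs
  · exact ⟨1, by simp⟩
  · exact ⟨0, by simp⟩

theorem M_e_self (n : ℕ) : S.M n (S.e n) := by
  intro i j
  have h1 : star (S.s n i) * S.e n = if S.o n = i then S.e n else 0 := by
    have := congrArg star (S.e_s n i)
    rw [star_mul, S.star_e] at this
    rw [this]; split_ifs <;> simp [S.star_e]
  rw [h1]
  split_ifs
  · rw [S.e_s]
    split_ifs
    · exact ⟨1, by simp⟩
    · exact ⟨0, by simp⟩
  · exact ⟨0, by simp⟩

theorem M_e {k n : ℕ} (h : k ≤ n) : S.M n (S.e k) := (S.M_e_self k).mono h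

/-- averaging over the matrix units -/
def avg (n : ℕ) (a : D) : D := ∑ i, S.s n i * a * star (S.s n i)

theorem avg_sa (n : ℕ) {a : D} (ha : IsSelfAdjoint a) : IsSelfAdjoint (S.avg n a) := by
  have ha' : star a = a := ha
  show star _ = _
  simp only [avg, star_sum, star_mul, star_star, ha', mul_assoc]

theorem avg_comm (n : ℕ) (a : D) {b : D} (hb : S.M n b) : Commute (S.avg n a) b := by
  choose c hc using hb
  have h1 : S.avg n a * b = ∑ i, ∑ j, c i j • (S.s n i * a * star (S.s n j)) := by
    rw [avg, Finset.sum_mul]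
    refine Finset.sum_congr rfl fun i _ => ?_
    calc _ = S.s n i * a * star (S.s n i) * b * ∑ j, S.s n j * star (S.s n j) := by
          rw [S.sum, mul_one]
      _ = _ := by
          rw [Finset.mul_sum]
          refine Finset.sum_congr rfl fun j _ => ?_
          calc _ = S.s n i * a * (star (S.s n i) * b * S.s n j) * star (S.s n j) := by
                simp only [mul_assoc]
            _ = _ := by
                rw [hc, mul_smul_comm, smul_mul_assoc, mul_assoc _ (S.e n), S.e_star_s]
  have h2 : b * S.avg n a = ∑ i, ∑ j, c i j • (S.s n i * a * star (S.s n j)) := by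
    rw [avg, Finset.mul_sum, Finset.sum_comm]
    refine Finset.sum_congr rfl fun j _ => ?_
    calc _ = (∑ i, S.s n i * star (S.s n i)) * (b * (S.s n j * a * star (S.s n j))) := by
          rw [S.sum, one_mul]
      _ = _ := by
          rw [Finset.sum_mul]
          refine Finset.sum_congr rfl fun i _ => ?_
          calc _ = S.s n i * (star (S.s n i) * b * S.s n j) * a * star (S.s n j) := by
                simp only [mul_assoc]
            _ = _ := by
                rw [hc, mul_smul_comm, smul_mul_assoc, smul_mul_assoc, S.s_e]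
  rw [Commute, SemiconjBy, h1, h2]

end PreSys

namespace Sys

variable (S : Sys D)

theorem room' (n : ℕ) (κ : Type*) [Fintype κ] [DecidableEq κ] : ∃ m > n, ∃ t : κ → D,
    (∀ j l, star (t j) * t l = if j = l then S.e m else 0) ∧ (∀ j, S.e n * t j = t j) ∧
      (∀ j, S.e m * t j = 0) ∧ (∀ j, t j * S.e m = t j) := by
  obtain ⟨m, hm, t, h1, h2, h3, h4⟩ := S.room n (Fintype.card κ)
  refine ⟨m, hm, fun j => t (Fintype.equivFin κ j), fun j l => ?_, fun j => h2 _, fun j => h3 _,
    fun j => h4 _⟩
  rw [h1]
  simp

end Sys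

theorem cayley (a : D) (ha : IsSelfAdjoint a) (hinv : IsUnit (a + Complex.I • (1 : D))) :
    ∃ u ∈ unitary D, (∀ b, Commute a b → Commute u b) ∧
      u * (a + Complex.I • (1 : D)) = Complex.I • (a - Complex.I • (1 : D)) := by
  have ha' : star a = a := ha
  obtain ⟨U, hU⟩ := hinv
  set r : D := ↑U⁻¹ with hr
  have h1 : r * (a + Complex.I • (1 : D)) = 1 := by rw [← hU, hr]; simp
  have h2 : (a + Complex.I • (1 : D)) * r = 1 := by rw [← hU, hr]; simp
  have hs : star (a + Complex.I • (1 : D)) = a - Complex.I • (1 : D) := by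
    simp [star_smul, ha', sub_eq_add_neg]
  have hs' : star (a - Complex.I • (1 : D)) = a + Complex.I • (1 : D) := by
    rw [← hs, star_star]
  have h3 : (a - Complex.I • (1 : D)) * star r = 1 := by
    have := congrArg star h1
    rwa [star_mul, hs, star_one] at this
  have h4 : star r * (a - Complex.I • (1 : D)) = 1 := by
    have := congrArg star h2
    rwa [star_mul, hs, star_one] at this
  have hcb : ∀ b, Commute a b → Commute r b := by
    intro b hb
    have : Commute (U : D) b := by
      rw [hU]
      exact hb.add_left ((Commute.one_left b).smul_left _)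
    exact this.units_inv_left
  have hc : Commute (a + Complex.I • (1 : D)) (a - Complex.I • (1 : D)) :=
    ((Commute.refl a).sub_right ((Commute.one_right a).smul_right _)).add_left
      ((Commute.one_left _).smul_left _)
  have hrr : Commute r (star r) := by
    apply hcb
    have h5 : Commute r a := hcb a (Commute.refl a)
    have := h5.star_star
    rw [ha'] at this
    exact this.symm
  have hII : star Complex.I * Complex.I = 1 := by simp
  have hII' : Complex.I * star Complex.I = 1 := by simp
  refine ⟨Complex.I • ((a - Complex.I • (1 : D)) * r), ⟨?_, ?_⟩, ?_, ?_⟩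
  · rw [star_smul, smul_mul_smul_comm, hII, one_smul, star_mul, hs']
    calc _ = star r * ((a + Complex.I • (1 : D)) * (a - Complex.I • (1 : D))) * r := by
          simp only [mul_assoc]
      _ = (star r * (a - Complex.I • (1 : D))) * ((a + Complex.I • (1 : D)) * r) := by
          rw [hc.eq]; simp only [mul_assoc]
      _ = 1 := by rw [h4, h2, mul_one]
  · rw [star_smul, smul_mul_smul_comm, hII', one_smul, star_mul, hs']
    calc _ = (a - Complex.I • (1 : D)) * (r * star r) * (a + Complex.I • (1 : D)) := by
          simp only [mul_assoc]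
      _ = ((a - Complex.I • (1 : D)) * star r) * (r * (a + Complex.I • (1 : D))) := by
          rw [hrr.eq]; simp only [mul_assoc]
      _ = 1 := by rw [h3, h1, mul_one]
  · intro b hb
    exact ((hb.sub_left ((Commute.one_left b).smul_left _)).mul_left (hcb b hb)).smul_left _
  · rw [smul_mul_assoc, mul_assoc, h1, mul_one]

theorem swap_facts (e p V u : D) (he : star e = e) (hee : e * e = e) (hp : star p = p)
    (hpp : p * p = p) (hep : e * p = e) (hVV : star V * V = e) (hVe : V * e = V)
    (heV : e * V = 0) (hpV : p * V = V) (hu : u ∈ unitary D) (hup : Commute u p) :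
    ∃ w ∈ unitary D, w * (1 - p) = 1 - p ∧ w * e = u * V := by
  have a1 : V * V = 0 := by
    calc V * V = (V * e) * V := by rw [hVe]
      _ = 0 := by rw [mul_assoc, heV, mul_zero]
  have a2 : e * star V = star V := by
    have := congrArg star hVe; rwa [star_mul, he] at this
  have a3 : star V * e = 0 := by
    have := congrArg star heV; rwa [star_mul, he, star_zero] at this
  have a4 : star V * star V = 0 := by
    have := congrArg star a1; rwa [star_mul, star_zero] at this
  have a5 : star V * p = star V := by
    have := congrArg star hpV; rwa [star_mul, hp] at this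
  have a6 : V * p = V := by rw [← hVe, mul_assoc, hep]
  have b1 : ∀ x, e * (V * x) = 0 := fun x => by rw [← mul_assoc, heV, zero_mul]
  have b2 : ∀ x, V * (V * x) = 0 := fun x => by rw [← mul_assoc, a1, zero_mul]
  have b3 : ∀ x, star V * (V * x) = e * x := fun x => by rw [← mul_assoc, hVV]
  set w0 : D := 1 - e - V * star V + V + star V with hw0
  have c1 : star w0 = w0 := by
    simp only [hw0, star_add, star_sub, star_one, star_mul, star_star, he]
    abel
  have c2 : w0 * w0 = 1 := by
    simp only [hw0, mul_add, add_mul, mul_sub, sub_mul, mul_assoc, one_mul, mul_one, hee, hVV,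
      hVe, heV, a1, a2, a3, a4, b1, b2, b3, mul_zero]
    abel
  have c3 : w0 * (1 - p) = 1 - p := by
    simp only [hw0, add_mul, mul_sub, sub_mul, mul_assoc, one_mul, mul_one, hep, a5, a6]
    abel
  have c4 : w0 * e = V := by
    simp only [hw0, add_mul, sub_mul, mul_assoc, one_mul, hee, hVe, a3, mul_zero]
    abel
  have d0 : w0 ∈ unitary D := ⟨by rw [c1, c2], by rw [c1, c2]⟩
  have hup' : Commute (star u) p := by
    have := hup.star_star; rwa [hp] at this
  have hu1 : star u * u = 1 := hu.1
  have hu2 : u * star u = 1 := hu.2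
  have f1 : ∀ x, p * (p * x) = p * x := fun x => by rw [← mul_assoc, hpp]
  have d1 : (1 - p) + p * u ∈ unitary D := by
    constructor
    · have : star u * (p * u) = p := by
        rw [← mul_assoc, hup'.eq, mul_assoc, hu1, mul_one]
      simp only [star_add, star_sub, star_one, star_mul, hp, mul_add, add_mul, mul_sub, sub_mul,
        mul_assoc, one_mul, mul_one, hpp, f1, this]
      abel
    · have g1 : u * (star u * p) = p := by rw [← mul_assoc, hu2, one_mul]
      have g2 : p * (u * p) = p * u := by rw [hup.eq, f1]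
      have g3 : p * (star u * p) = star u * p := by rw [hup'.eq, f1]
      simp only [star_add, star_sub, star_one, star_mul, hp, mul_add, add_mul, mul_sub, sub_mul,
        mul_assoc, one_mul, mul_one, hpp, g1, g2, g3]
      abel
  refine ⟨((1 - p) + p * u) * w0, mul_mem d1 d0, ?_, ?_⟩
  · rw [mul_assoc, c3]
    have g2 : p * (u * p) = p * u := by rw [hup.eq, f1]
    simp only [add_mul, mul_sub, sub_mul, mul_assoc, one_mul, mul_one, hpp, g2]
    abel
  · rw [mul_assoc, c4, add_mul, sub_mul, one_mul, hpV, sub_self, zero_add, ← hup.eq, mul_assoc,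
      hpV]

end Vale.Agent.P070
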