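import Vale.Agent.P070.Sys

/-!
The tower of matrix units generated by a sequence of Pauli pairs.
-/

open scoped InnerProductSpace ComplexConjugate
open Filter Topology

set_option linter.unusedSectionVars false

namespace Vale.Agent.P070

variable {D : Type*} [Ring D] [StarRing D] [Algebra ℂ D] [StarModule ℂ D]

theorem PreSys.expand (S : PreSys D) (n : ℕ) (b : D) :
    b = ∑ i, ∑ j, S.s n i * (star (S.s n i) * b * S.s n j) * star (S.s n j) := by
  calc b = (∑ i, S.s n i * star (S.s n i)) * b * ∑ j, S.s n j * star (S.s n j) := by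
        rw [S.sum, one_mul, mul_one]
    _ = _ := by
        rw [Finset.sum_mul, Finset.sum_mul]
        refine Finset.sum_congr rfl fun i _ => ?_
        rw [Finset.mul_sum]
        refine Finset.sum_congr rfl fun j _ => ?_
        simp only [mul_assoc]

theorem PreSys.inv_of (S : PreSys D) {L : Type*} [CStarAlgebra L] (ι : D →⋆ₐ[ℂ] L)
    (hι : Function.Injective ι) {a : D} (ha : IsSelfAdjoint a) {n : ℕ} (hn : S.M n a) :
    IsUnit (a + Complex.I • (1 : D)) := by
  set g := a + Complex.I • (1 : D) with hg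
  have hgM : S.M n g := hn.add ((S.M_one n).smul _)
  have hunit : IsUnit (ι g) := by
    have hsa : IsSelfAdjoint (ι a) := ha.map ι
    have h1 : -Complex.I ∉ spectrum ℂ (ι a) := by
      intro h
      have := hsa.im_eq_zero_of_mem_spectrum h
      simp at this
    rw [spectrum.notMem_iff] at h1
    have h2 : ι g = -(algebraMap ℂ L (-Complex.I) - ι a) := by
      rw [hg, map_add, map_smul, map_one, Algebra.algebraMap_eq_smul_one]
      simp
    rw [h2]
    exact h1.neg
  let Mn : Submodule ℂ D :=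
    { carrier := {b | S.M n b}
      add_mem' := fun ha hb => ha.add hb
      zero_mem' := by simpa using (S.M_one n).smul 0
      smul_mem' := fun c _ ha => ha.smul c }
  have hle : Mn ≤ Submodule.span ℂ
      (Set.range fun p : S.I n × S.I n => S.s n p.1 * star (S.s n p.2)) := by
    intro b hb
    rw [S.expand n b]
    refine Submodule.sum_mem _ fun i _ => Submodule.sum_mem _ fun j _ => ?_
    obtain ⟨c, hc⟩ := hb i j
    rw [hc, mul_smul_comm, smul_mul_assoc, S.s_e]
    exact Submodule.smul_mem _ _ (Submodule.subset_span ⟨(i, j), rfl⟩)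
  have : FiniteDimensional ℂ (Submodule.span ℂ
      (Set.range fun p : S.I n × S.I n => S.s n p.1 * star (S.s n p.2))) :=
    FiniteDimensional.span_of_finite ℂ (Set.finite_range _)
  have : FiniteDimensional ℂ Mn := Submodule.finiteDimensional_of_le hle
  let T : Mn →ₗ[ℂ] Mn :=
    { toFun := fun b => ⟨g * b, hgM.mul b.2⟩
      map_add' := fun a b => Subtype.ext (mul_add _ _ _)
      map_smul' := fun c b => Subtype.ext (mul_smul_comm _ _ _) }
  have hinj : Function.Injective T := by
    intro b b' h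
    have h1 : g * b = g * b' := congrArg Subtype.val h
    have h2 := congrArg ι h1
    rw [map_mul, map_mul] at h2
    exact Subtype.ext (hι (hunit.mul_left_cancel h2))
  obtain ⟨y, hy⟩ := LinearMap.injective_iff_surjective.mp hinj ⟨1, S.M_one n⟩
  have hy1 : g * y = 1 := congrArg Subtype.val hy
  have hy2 : y * g = 1 := by
    apply hι
    apply hunit.mul_left_cancel
    rw [← map_mul, ← mul_assoc, hy1, one_mul, map_one, mul_one]
  exact ⟨⟨g, y, hy1, hy2⟩, rfl⟩

/-- a sequence of Pauli pairs -/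
structure Pauli (D : Type*) [Ring D] [StarRing D] where
  X : ℕ → D
  Z : ℕ → D
  star_X : ∀ j, star (X j) = X j
  star_Z : ∀ j, star (Z j) = Z j
  XX : ∀ j, X j * X j = 1
  ZZ : ∀ j, Z j * Z j = 1
  XZ : ∀ j, X j * Z j = -(Z j * X j)
  cXX : ∀ i j, Commute (X i) (X j)
  cZZ : ∀ i j, Commute (Z i) (Z j)
  cXZ : ∀ i j, i ≠ j → Commute (X i) (Z j)

/-- index sets of the tower -/
def TI : ℕ → Type
  | 0 => Unit
  | n + 1 => TI n × Bool

/-- finiteness of the index sets -/
@[reducible] def TI.fin : ∀ n, Fintype (TI n)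
  | 0 => inferInstanceAs (Fintype Unit)
  | n + 1 => @instFintypeProd (TI n) Bool (TI.fin n) _

/-- base points -/
def TI.o : ∀ n, TI n
  | 0 => ()
  | n + 1 => (TI.o n, false)

namespace Pauli

variable (p : Pauli D)

/-- the projection attached to the `j`-th pair -/
noncomputable def P (j : ℕ) : D := (1 / 2 : ℂ) • (1 + p.Z j)

theorem star_P (j : ℕ) : star (p.P j) = p.P j := by
  simp [P, star_smul, p.star_Z]

theorem PZ (j : ℕ) : p.P j * p.Z j = p.P j := by
  rw [P, smul_mul_assoc, add_mul, one_mul, p.ZZ, add_comm]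

theorem ZP (j : ℕ) : p.Z j * p.P j = p.P j := by
  rw [P, mul_smul_comm, mul_add, mul_one, p.ZZ, add_comm]

theorem PP (j : ℕ) : p.P j * p.P j = p.P j := by
  conv_lhs => enter [2]; rw [P]
  rw [mul_smul_comm, mul_add, mul_one, p.PZ]
  module

theorem XPX (j : ℕ) : p.X j * p.P j * p.X j = 1 - p.P j := by
  rw [P, mul_smul_comm, smul_mul_assoc, mul_add, mul_one, add_mul, p.XX, p.XZ, neg_mul, mul_assoc,
    p.XX, mul_one]
  module

theorem XP (j : ℕ) : p.X j * p.P j = (1 - p.P j) * p.X j := by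
  rw [← p.XPX, mul_assoc, p.XX, mul_one]

theorem PXP (j : ℕ) : p.P j * (p.X j * p.P j) = 0 := by
  rw [p.XP, ← mul_assoc, mul_sub, mul_one, p.PP, sub_self, zero_mul]

theorem comm_P {y : D} {j : ℕ} (h : Commute y (p.Z j)) : Commute y (p.P j) :=
  ((Commute.one_right y).add_right h).smul_right _

/-- column of two by two matrix units -/
noncomputable def r (j : ℕ) (c : Bool) : D := cond c (p.X j * p.P j) (p.P j)

/-- columns of matrix units -/
noncomputable def s : ∀ n, TI n → D
  | 0, _ => 1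
  | n + 1, q => s n q.1 * p.r n q.2

/-- the standard projections -/
noncomputable def e : ℕ → D
  | 0 => 1
  | n + 1 => e n * p.P n

theorem star_r (j : ℕ) (c : Bool) : star (p.r j c) = cond c (p.P j * p.X j) (p.P j) := by
  cases c <;> simp [r, p.star_P, p.star_X]

theorem r_orth (j : ℕ) (c c' : Bool) :
    star (p.r j c) * p.r j c' = if c = c' then p.P j else 0 := by
  have h : p.X j * (p.X j * p.P j) = p.P j := by rw [← mul_assoc, p.XX, one_mul]
  rw [star_r]
  cases c <;> cases c' <;> simp [r, mul_assoc, p.PP, p.PXP, h]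

theorem r_sum (j : ℕ) : ∑ c, p.r j c * star (p.r j c) = 1 := by
  have h : p.P j * (p.P j * p.X j) = p.P j * p.X j := by rw [← mul_assoc, p.PP]
  simp only [star_r]
  simp only [Fintype.sum_bool, r, cond_true, cond_false, p.PP, mul_assoc, h]
  rw [← mul_assoc, p.XPX]; abel

theorem r_X (j : ℕ) (c c' : Bool) :
    ∃ z : ℂ, star (p.r j c) * p.X j * p.r j c' = z • p.P j := by
  have h : ∀ y, p.X j * (p.X j * y) = y := fun y => by rw [← mul_assoc, p.XX, one_mul]
  rw [star_r]
  cases c <;> cases c'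
  · exact ⟨0, by simp [r, mul_assoc, p.PXP]⟩
  · exact ⟨1, by simp [r, mul_assoc, p.PP, h]⟩
  · exact ⟨1, by simp [r, mul_assoc, p.PP, h]⟩
  · exact ⟨0, by simp [r, mul_assoc, p.PXP, h]⟩

theorem r_Z (j : ℕ) (c c' : Bool) :
    ∃ z : ℂ, star (p.r j c) * p.Z j * p.r j c' = z • p.P j := by
  have h : ∀ y, p.X j * (p.X j * y) = y := fun y => by rw [← mul_assoc, p.XX, one_mul]
  have h2 : ∀ y, p.P j * (p.Z j * y) = p.P j * y := fun y => by rw [← mul_assoc, p.PZ]
  have h3 : ∀ y, p.X j * (p.Z j * y) = -(p.Z j * (p.X j * y)) := fun y => by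
    rw [← mul_assoc, p.XZ, neg_mul, mul_assoc]
  rw [star_r]
  cases c <;> cases c'
  · exact ⟨1, by simp [r, p.PZ, p.PP]⟩
  · exact ⟨0, by simp [r, mul_assoc, p.PXP, h2]⟩
  · exact ⟨0, by simp [r, mul_assoc, p.PXP, p.ZP]⟩
  · exact ⟨-1, by simp [r, mul_assoc, h3, h, p.ZP, p.PP]⟩

theorem comm_r {y : D} {j : ℕ} (h1 : Commute y (p.X j)) (h2 : Commute y (p.Z j)) (c : Bool) :
    Commute y (p.r j c) := by
  cases c
  · exact p.comm_P h2
  · exact h1.mul_right (p.comm_P h2)

theorem comm_s {y : D} : ∀ (n : ℕ), (∀ j < n, Commute y (p.X j) ∧ Commute y (p.Z j)) →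
    ∀ i, Commute y (p.s n i)
  | 0, _, _ => Commute.one_right y
  | n + 1, h, q => (comm_s n (fun j hj => h j (by omega)) q.1).mul_right
      (p.comm_r (h n (by omega)).1 (h n (by omega)).2 q.2)

theorem comm_e {y : D} : ∀ (n : ℕ), (∀ j < n, Commute y (p.Z j)) → Commute y (p.e n)
  | 0, _ => Commute.one_right y
  | n + 1, h => (comm_e n (fun j hj => h j (by omega))).mul_right (p.comm_P (h n (by omega)))

theorem X_e {m n : ℕ} (h : n ≤ m) : Commute (p.X m) (p.e n) :=
  p.comm_e n fun j hj => p.cXZ m j (by omega)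

theorem Z_e (m n : ℕ) : Commute (p.Z m) (p.e n) := p.comm_e n fun j _ => p.cZZ m j

theorem P_e (m n : ℕ) : Commute (p.e n) (p.P m) := p.comm_P (p.Z_e m n).symm

theorem r_e (n : ℕ) (c : Bool) : Commute (p.e n) (p.r n c) :=
  p.comm_r (p.X_e le_rfl).symm (p.Z_e n n).symm c

theorem star_r_e (n : ℕ) (c : Bool) : Commute (star (p.r n c)) (p.e n) := by
  rw [star_r]
  cases c
  · exact (p.P_e n n).symm
  · exact (p.P_e n n).symm.mul_left (p.X_e le_rfl)

theorem e_P {a : ℕ} : ∀ m, a < m → p.e m * p.P a = p.e m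
  | 0, h => absurd h (Nat.not_lt_zero a)
  | m + 1, h => by
    show p.e m * p.P m * p.P a = p.e m * p.P m
    rcases Nat.lt_succ_iff_lt_or_eq.mp h with h | h
    · have : Commute (p.P m) (p.P a) := p.comm_P (p.comm_P (p.cZZ a m)).symm
      rw [mul_assoc, this.eq, ← mul_assoc, e_P m h]
    · rw [h, mul_assoc, p.PP]

theorem s_o : ∀ n, p.s n (TI.o n) = p.e n
  | 0 => rfl
  | n + 1 => by
    show p.s n (TI.o n) * p.P n = p.e n * p.P n
    rw [s_o n]

open Classical in
theorem s_orth : ∀ n (i j : TI n), star (p.s n i) * p.s n j = if i = j then p.e n else 0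
  | 0, i, j => by
    have hij : i = j := rfl
    rw [if_pos hij]
    show star 1 * 1 = (1 : D)
    simp
  | n + 1, q, q' => by
    show star (p.s n q.1 * p.r n q.2) * (p.s n q'.1 * p.r n q'.2) = _
    have h : star (p.s n q.1 * p.r n q.2) * (p.s n q'.1 * p.r n q'.2) =
        star (p.r n q.2) * (star (p.s n q.1) * p.s n q'.1) * p.r n q'.2 := by
      simp only [star_mul, mul_assoc]
    rw [h, s_orth n q.1 q'.1]
    by_cases hq : q = q'
    · subst hq
      rw [if_pos rfl, if_pos rfl, (p.star_r_e n q.2).eq, mul_assoc, p.r_orth, if_pos rfl]; rfl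
    · rw [if_neg hq]
      by_cases hij : q.1 = q'.1
      · rw [if_pos hij, (p.star_r_e n q.2).eq, mul_assoc, p.r_orth,
          if_neg (fun hc => hq (Prod.ext hij hc)), mul_zero]
      · rw [if_neg hij, mul_zero, zero_mul]

theorem s_sum : ∀ n, @Finset.sum _ _ _ (@Finset.univ _ (TI.fin n))
    (fun i => p.s n i * star (p.s n i)) = 1
  | 0 => by
    show ∑ _i : Unit, (1 : D) * star 1 = 1
    simp
  | n + 1 => by
    let := TI.fin n
    show ∑ q : TI n × Bool, p.s n q.1 * p.r n q.2 * star (p.s n q.1 * p.r n q.2) = 1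
    rw [Fintype.sum_prod_type, ← s_sum n]
    refine Finset.sum_congr rfl fun i _ => ?_
    calc _ = p.s n i * (∑ c, p.r n c * star (p.r n c)) * star (p.s n i) := by
          rw [Finset.mul_sum, Finset.sum_mul]
          simp only [star_mul, mul_assoc]
      _ = _ := by rw [p.r_sum, mul_one]

/-- the tower -/
noncomputable def pre : PreSys D where
  I := TI
  fin := TI.fin
  dec := fun _ => Classical.decEq _
  o := TI.o
  s := p.s
  e := p.e
  e_eq := p.s_o
  orth := fun n i j => by convert p.s_orth n i j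
  sum := p.s_sum
  mono := by
    rintro n b hb ⟨i, c⟩ ⟨j, c'⟩
    obtain ⟨z, hz⟩ := hb i j
    have h : star (p.s n i * p.r n c) * b * (p.s n j * p.r n c') =
        star (p.r n c) * (star (p.s n i) * b * p.s n j) * p.r n c' := by
      simp only [star_mul, mul_assoc]
    refine ⟨if c = c' then z else 0, ?_⟩
    show star (p.s n i * p.r n c) * b * (p.s n j * p.r n c') = _ • (p.e n * p.P n)
    rw [h, hz, mul_smul_comm, smul_mul_assoc, (p.star_r_e n c).eq, mul_assoc, p.r_orth]
    split_ifs <;> simp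
  e_succ := fun n => by
    show p.e n * (p.e n * p.P n) = p.e n * p.P n
    have h := p.s_orth n (TI.o n) (TI.o n)
    rw [if_pos rfl, p.s_o] at h
    have h2 : star (p.e n) = p.e n := by rw [← h, star_mul, star_star]
    rw [h2] at h
    rw [← mul_assoc, h]

theorem M_gen {n : ℕ} {y : D} (h1 : ∀ j < n, Commute y (p.X j) ∧ Commute y (p.Z j))
    (h2 : ∀ c c', ∃ z : ℂ, star (p.r n c) * y * p.r n c' = z • p.P n) : p.pre.M (n + 1) y := by
  classical
  rintro ⟨i, c⟩ ⟨j, c'⟩
  obtain ⟨z, hz⟩ := h2 c c'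
  refine ⟨if i = j then z else 0, ?_⟩
  show star (p.s n i * p.r n c) * y * (p.s n j * p.r n c') = _ • (p.e n * p.P n)
  have h : star (p.s n i * p.r n c) * y * (p.s n j * p.r n c') =
      star (p.r n c) * (star (p.s n i) * p.s n j) * y * p.r n c' := by
    simp only [star_mul, mul_assoc]
    rw [← mul_assoc y, (p.comm_s n h1 j).eq, mul_assoc]
  rw [h, p.s_orth]
  by_cases hij : i = j
  · rw [if_pos hij, if_pos hij, (p.star_r_e n c).eq, mul_assoc (p.e n), mul_assoc (p.e n), hz,
      mul_smul_comm]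
  · rw [if_neg hij, if_neg hij]; simp

theorem M_X (n : ℕ) : p.pre.M (n + 1) (p.X n) :=
  p.M_gen (fun j hj => ⟨p.cXX n j, p.cXZ n j (by omega)⟩) (p.r_X n)

theorem M_Z (n : ℕ) : p.pre.M (n + 1) (p.Z n) :=
  p.M_gen (fun j hj => ⟨(p.cXZ j n (by omega)).symm, p.cZZ n j⟩) (p.r_Z n)

theorem room (n N : ℕ) : ∃ m > n, ∃ t : Fin N → D,
    (∀ j l, star (t j) * t l = if j = l then p.e m else 0) ∧ (∀ j, p.e n * t j = t j) ∧
      (∀ j, p.e m * t j = 0) ∧ (∀ j, t j * p.e m = t j) := by
  have hs : ∀ m, star (p.e m) = p.e m := p.pre.star_e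
  have hee : ∀ m, p.e m * p.e m = p.e m := p.pre.e_e
  have key : ∀ m a, a < m → ∀ y, Commute y (p.P a) → p.e m * (p.X a * (y * p.e m)) = 0 := by
    intro m a h y hy
    have h1 : p.P a * p.e m = p.e m := by rw [← (p.P_e a m).eq, p.e_P m h]
    calc _ = (p.e m * p.P a) * (p.X a * (y * (p.P a * p.e m))) := by rw [h1, p.e_P m h]
      _ = p.e m * (p.P a * (p.X a * p.P a)) * (y * p.e m) := by
          rw [← mul_assoc y, hy.eq]; simp only [mul_assoc]
      _ = 0 := by rw [p.PXP, mul_zero, zero_mul]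
  refine ⟨n + N + 1, by omega, fun j => p.X (n + j) * p.e (n + N + 1), fun j l => ?_, fun j => ?_,
    fun j => ?_, fun j => ?_⟩
  · rw [star_mul, hs, p.star_X, mul_assoc]
    split_ifs with h
    · rw [h, ← mul_assoc (p.X _), p.XX, one_mul, hee]
    · refine key _ _ (by omega) _ (p.comm_P (p.cXZ _ _ ?_))
      intro h'
      exact h (Fin.ext (by omega))
  · have : p.e n * p.e (n + N + 1) = p.e (n + N + 1) := p.pre.e_le (k := n) (m := n + N + 1) (by omega)
    rw [← mul_assoc, ← (p.X_e (Nat.le_add_right n j)).eq, mul_assoc, this]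
  · have := key (n + N + 1) (n + j) (by omega) 1 (Commute.one_left _)
    rwa [one_mul] at this
  · rw [mul_assoc, hee]

/-- the full system -/
noncomputable def sys {L : Type*} [CStarAlgebra L] (ι : D →⋆ₐ[ℂ] L) (hι : Function.Injective ι)
    (hind : ∀ b, ∃ n, p.pre.M n b) : Sys D where
  toPreSys := p.pre
  exh := hind
  room := p.room
  star_zero := fun x hx => by
    apply hι
    have := congrArg ι hx
    rw [map_mul, map_star, map_zero, CStarRing.star_mul_self_eq_zero_iff] at this
    rw [this, map_zero]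
  inv := fun a ha => by
    obtain ⟨n, hn⟩ := hind a
    exact p.pre.inv_of ι hι ha hn

theorem trace_e (ω : D →ₗ[ℂ] ℂ) (hω : ∀ a b, ω (a * b) = ω (b * a)) :
    ∀ n, ω (p.e n) = (1 / 2) ^ n * ω 1
  | 0 => by simp [e]
  | n + 1 => by
    have h1 : ω (p.e n * p.P n) = ω (p.e n * (1 - p.P n)) := by
      rw [← p.XPX, ← mul_assoc, hω _ (p.X n), ← mul_assoc, ← mul_assoc, (p.X_e le_rfl).eq,
        mul_assoc (p.e n), p.XX, mul_one]
    rw [mul_sub, mul_one, map_sub, trace_e ω hω n] at h1
    show ω (p.e n * p.P n) = _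
    rw [pow_succ]
    linear_combination (1 / 2) * h1

end Pauli

end Vale.Agent.P070
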