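import Vale.Agent.P070.Glue

/-!
All irreducible representations of the glued algebra are unitarily equivalent.
-/

open scoped InnerProductSpace ComplexConjugate
open Filter Topology

set_option linter.unusedSectionVars false

namespace Vale.Agent.P070

variable {D : Type*} [Ring D] [StarRing D] [Algebra ℂ D] [StarModule ℂ D]
variable {H₀ : Type*} [NormedAddCommGroup H₀] [InnerProductSpace ℂ H₀] [CompleteSpace H₀]
variable {H : Type*} [NormedAddCommGroup H] [InnerProductSpace ℂ H] [CompleteSpace H]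

theorem rep_continuous {A : Type*} [CStarAlgebra A] (π : A →⋆ₐ[ℂ] (H →L[ℂ] H)) :
    Continuous π :=
  AddMonoidHomClass.continuous_of_bound π 1
    (by simpa only [one_mul] using NonUnitalStarAlgHom.norm_apply_le π)

namespace Sys

variable (S : Sys D)

theorem exists_strong_limit (σ : D →⋆ₐ[ℂ] (H →L[ℂ] H)) (η : H) :
    ∃ θ : H, Tendsto (fun k => σ (S.e k) η) atTop (𝓝 θ) ∧ ∀ k, σ (S.e k) θ = θ := by
  have hsq : ∀ k m, k ≤ m →
      ‖σ (S.e k) η - σ (S.e m) η‖ ^ 2 = ‖σ (S.e k) η‖ ^ 2 - ‖σ (S.e m) η‖ ^ 2 := by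
    intro k m h
    have e1 : ⟪σ (S.e k) η, σ (S.e m) η⟫_ℂ = ⟪σ (S.e m) η, σ (S.e m) η⟫_ℂ := by
      rw [inner_rep_left, inner_rep_left σ (S.e m), ← rep_mul, ← rep_mul, S.star_e, S.star_e,
        S.e_le h, S.e_e]
    rw [@norm_sub_sq ℂ, e1, inner_self_eq_norm_sq]
    ring
  have hanti : Antitone fun k => ‖σ (S.e k) η‖ ^ 2 := by
    intro k m h
    have := hsq k m h
    have h2 := sq_nonneg ‖σ (S.e k) η - σ (S.e m) η‖
    simp only
    linarith
  have hconv := tendsto_atTop_ciInf hanti ⟨0, by rintro _ ⟨k, rfl⟩; positivity⟩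
  have hcs : CauchySeq fun k => σ (S.e k) η := by
    rw [Metric.cauchySeq_iff']
    intro ε hε
    obtain ⟨N, hN⟩ := Metric.cauchySeq_iff'.mp hconv.cauchySeq (ε ^ 2) (by positivity)
    refine ⟨N, fun n hn => ?_⟩
    have h1 := hN n hn
    rw [Real.dist_eq, abs_sub_comm, ← hsq N n hn] at h1
    rw [dist_comm, dist_eq_norm]
    exact lt_of_pow_lt_pow_left₀ 2 hε.le (lt_of_le_of_lt (le_abs_self _) h1)
  obtain ⟨θ, hθ⟩ := cauchySeq_tendsto_of_complete hcs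
  refine ⟨θ, hθ, fun k => ?_⟩
  refine tendsto_nhds_unique (((σ (S.e k)).continuous.tendsto θ).comp hθ) (hθ.congr' ?_)
  filter_upwards [eventually_ge_atTop k] with m hm
  simp only [Function.comp]
  rw [← rep_mul, S.e_le hm]

variable {ι : D →⋆ₐ[ℂ] (H₀ →L[ℂ] H₀)} {C : Set (H₀ →L[ℂ] H₀)}

theorem exists_fixed [Nontrivial H] (hι : S.Small ι) (hC : Maximal (S.Fam ι) C)
    (π : Alg ι C →⋆ₐ[ℂ] (H →L[ℂ] H)) (hπ : Irr π) :
    ∃ ζ : H, ‖ζ‖ = 1 ∧ ∀ k, π (incl ι C (S.e k)) ζ = ζ := by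
  by_contra hn
  let σ : D →⋆ₐ[ℂ] (H →L[ℂ] H) := π.comp (incl ι C)
  have hσ : ∀ b, σ b = π (incl ι C b) := fun b => rfl
  have h0 : ∀ η : H, Tendsto (fun k => σ (S.e k) η) atTop (𝓝 0) := by
    intro η
    obtain ⟨θ, h1, h2⟩ := S.exists_strong_limit σ η
    by_cases hθ : θ = 0
    · rwa [hθ] at h1
    · exfalso
      apply hn
      refine ⟨((‖θ‖⁻¹ : ℝ) : ℂ) • θ, ?_, fun k => ?_⟩
      · rw [norm_smul, Complex.norm_real, norm_inv, norm_norm,
          inv_mul_cancel₀ (norm_ne_zero_iff.mpr hθ)]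
      · rw [map_smul, ← hσ, h2]
  have hirr : Irr σ := by
    intro K hK hinv
    refine hπ K hK fun a => ?_
    refine (Alg_induction ι (fun a => (∀ η ∈ K, π a η ∈ K) ∧ ∀ η ∈ K, π (star a) η ∈ K)
      ?_ ?_ ?_ ?_ ?_ ?_ a).1
    · have c1 : ∀ η : H, Continuous fun a => π a η := fun η =>
        (rep_continuous π).clm_apply continuous_const
      have e : {a : Alg ι C | (∀ η ∈ K, π a η ∈ K) ∧ ∀ η ∈ K, π (star a) η ∈ K} =
          (⋂ η ∈ K, (fun a => π a η) ⁻¹' K) ∩ ⋂ η ∈ K, (fun a => π (star a) η) ⁻¹' K := by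
        ext a; simp
      rw [e]
      exact (isClosed_biInter fun η _ => hK.preimage (c1 η)).inter
        (isClosed_biInter fun η _ => hK.preimage ((c1 η).comp continuous_star))
    · intro b
      exact ⟨hinv b, by rw [← map_star]; exact hinv _⟩
    · intro x hx
      choose d hd using (hC.prop.1 x hx).2
      set X : Alg ι C := ⟨x, mem_Alg_of_mem ι hx⟩ with hX
      have e1 : ∀ k, incl ι C (d k) = X * (1 - incl ι C (S.e k)) := fun k =>
        Subtype.ext (hd k).symm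
      constructor
      · intro η hη
        have t1 : Tendsto (fun k => π X η - π X (σ (S.e k) η)) atTop (𝓝 (π X η - π X 0)) :=
          tendsto_const_nhds.sub (((π X).continuous.tendsto 0).comp (h0 η))
        rw [map_zero, sub_zero] at t1
        refine hK.mem_of_tendsto t1 (Eventually.of_forall fun k => ?_)
        have := hinv (d k) η hη
        rw [hσ, e1, rep_mul, map_sub, map_one, sub_apply, map_sub] at this
        exact this
      · intro η hη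
        have t1 : Tendsto (fun k => π (star X) η - σ (S.e k) (π (star X) η)) atTop
            (𝓝 (π (star X) η - 0)) := tendsto_const_nhds.sub (h0 _)
        rw [sub_zero] at t1
        refine hK.mem_of_tendsto t1 (Eventually.of_forall fun k => ?_)
        have := hinv (star (d k)) η hη
        rw [hσ, map_star, e1, star_mul, star_sub, star_one, ← map_star, S.star_e, rep_mul, map_sub,
          map_one, sub_apply] at this
        exact this
    · intro a b ha hb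
      refine ⟨fun η hη => ?_, fun η hη => ?_⟩
      · rw [map_add]; exact K.add_mem (ha.1 η hη) (hb.1 η hη)
      · rw [star_add, map_add]; exact K.add_mem (ha.2 η hη) (hb.2 η hη)
    · intro a b ha hb
      refine ⟨fun η hη => ?_, fun η hη => ?_⟩
      · rw [rep_mul]; exact ha.1 _ (hb.1 η hη)
      · rw [star_mul, rep_mul]; exact hb.2 _ (ha.2 η hη)
    · intro a ha
      exact ⟨ha.2, by rw [star_star]; exact ha.1⟩
  obtain ⟨x, hx, ξ, hξ, h1, h2, h3⟩ := S.exists_good hι hirr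
  have horth : ∀ x' ∈ C, ∀ b, S.Exc ι (star x * ι b * x') := by
    intro x' hx' b ε hε
    set X : Alg ι C := ⟨x', mem_Alg_of_mem ι hx'⟩ with hX
    have hu' := (hC.prop.1 x' hx').1
    set θ : H := π (star X) (σ (star b) ξ) with hθ
    have t1 : Tendsto (fun k => ⟪θ, σ (S.e k) θ⟫_ℂ) atTop (𝓝 ⟪θ, 0⟫_ℂ) :=
      tendsto_const_nhds.inner (h0 θ)
    rw [inner_zero_right, NormedAddGroup.tendsto_nhds_zero] at t1
    obtain ⟨j, hj⟩ := (t1 (ε ^ 2) (by positivity)).exists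
    obtain ⟨d, hd⟩ := (hC.prop.1 x' hx').2 j
    have e1 : ι (1 - d * star d) = x' * ι (S.e j) * star x' := by
      have hv2 : x' * star x' = 1 := hu'.2
      have : x' * (1 - ι (S.e j)) * star (x' * (1 - ι (S.e j))) =
          x' * star x' - x' * ι (S.e j) * star x' - x' * ι (S.e j) * star x' +
            x' * (ι (S.e j) * ι (S.e j)) * star x' := by
        rw [star_mul, star_sub, star_one, S.star_E]; noncomm_ring
      rw [map_sub, map_one, map_mul, map_star, ← hd, this, S.E_le ι le_rfl, hv2]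
      abel
    have e2 : incl ι C (1 - d * star d) = X * incl ι C (S.e j) * star X := Subtype.ext e1
    obtain ⟨k, hk⟩ := h3 (b * (1 - d * star d) * star b)
    have e3 : ⟪ξ, σ (b * (1 - d * star d) * star b) ξ⟫_ℂ = ⟪θ, σ (S.e j) θ⟫_ℂ := by
      rw [rep_mul, rep_mul, inner_rep_right, hσ (1 - d * star d), e2, rep_mul, rep_mul,
        inner_rep_right]
      rfl
    rw [e3] at hk
    have e4 : ‖ι (S.e k) * (star x * ι b * x') * ι (S.e j)‖ ^ 2 ≤ ε ^ 2 := by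
      rw [sq, ← CStarRing.norm_self_mul_star]
      have : ι (S.e k) * (star x * ι b * x') * ι (S.e j) *
          star (ι (S.e k) * (star x * ι b * x') * ι (S.e j)) =
          ι (S.e k) * star x * ι (b * (1 - d * star d) * star b) * x * ι (S.e k) := by
        rw [map_mul, map_mul, e1, map_star]
        simp only [star_mul, star_star, S.star_E, mul_assoc]
        rw [← mul_assoc (ι (S.e j)) (ι (S.e j)), S.E_le ι le_rfl]
      rw [this, hk, norm_smul]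
      exact (mul_le_of_le_one_right (norm_nonneg _) (S.norm_E ι k)).trans hj.le
    have e5 := (sq_le_sq₀ (norm_nonneg _) hε.le).mp e4
    refine ⟨max k j, 0, ?_⟩
    rw [zero_smul, sub_zero]
    refine (S.near_mono ι _ (le_max_right k j)).trans (le_trans ?_ e5)
    rw [← S.E_ge ι (le_max_left k j), mul_assoc, mul_assoc, ← mul_assoc (ι (S.e k))]
    exact S.norm_E_mul ι _ _
  have hfam : S.Fam ι (insert x C) := by
    constructor
    · rintro y (rfl | hy)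
      · exact ⟨hx, h1⟩
      · exact hC.prop.1 y hy
    · rintro y (rfl | hy) y' (rfl | hy') b
      · obtain ⟨k, hk⟩ := h3 b
        refine exc_of_eq (k := k) (c := ⟪ξ, σ b ξ⟫_ℂ) ?_
        rw [← hk]; simp only [mul_assoc]
      · exact horth y' hy' b
      · have := (horth y hy (star b)).star
        rw [star_mul, star_mul, star_star, map_star, star_star, ← mul_assoc] at this
        exact this
      · exact hC.prop.2 y hy y' hy' b
  have hxC : x ∈ C := hC.le_of_ge hfam (Set.subset_insert x C) (Set.mem_insert x C)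
  set X : Alg ι C := ⟨x, mem_Alg_of_mem ι hxC⟩ with hX
  have hX1 : star X * X = 1 := Subtype.ext hx.1
  have hX2 : X * star X = 1 := Subtype.ext hx.2
  have e1 : ∀ k, σ (S.e k) (π (star X) ξ) = π (star X) ξ := by
    intro k
    obtain ⟨q, hq1, hq2⟩ := h2 k
    have e2 : incl ι C q = X * incl ι C (S.e k) * star X := Subtype.ext hq1.symm
    conv_rhs => rw [← hq2, hσ, e2, ← rep_mul, ← mul_assoc, ← mul_assoc, hX1, one_mul, rep_mul]
    rfl
  have e3 : π (star X) ξ = 0 := by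
    have := h0 (π (star X) ξ)
    simp only [e1] at this
    exact tendsto_nhds_unique tendsto_const_nhds this
  have e4 : ξ = 0 := by
    have : π (X * star X) ξ = ξ := by rw [hX2, map_one]; rfl
    rw [← this, rep_mul, e3, map_zero]
  rw [e4, norm_zero] at hξ
  exact zero_ne_one hξ

theorem state_approx (π : Alg ι C →⋆ₐ[ℂ] (H →L[ℂ] H)) {ζ : H} (hζ : ‖ζ‖ = 1)
    (hζe : ∀ k, π (incl ι C (S.e k)) ζ = ζ) (a : Alg ι C) (k : ℕ) (c : ℂ) :
    ‖⟪ζ, π a ζ⟫_ℂ - c‖ ≤ ‖ι (S.e k) * (a : H₀ →L[ℂ] H₀) * ι (S.e k) - c • ι (S.e k)‖ := by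
  set y : Alg ι C := incl ι C (S.e k) * a * incl ι C (S.e k) - c • incl ι C (S.e k) with hy
  have e1 : ‖ι (S.e k) * (a : H₀ →L[ℂ] H₀) * ι (S.e k) - c • ι (S.e k)‖ = ‖y‖ := rfl
  have e2 : ⟪ζ, π a ζ⟫_ℂ - c = ⟪ζ, π y ζ⟫_ℂ := by
    rw [hy, map_sub, sub_apply, inner_sub_right, rep_mul, rep_mul, inner_rep_right _ (incl ι C _),
      ← map_star, S.star_e, hζe, map_smul, smul_apply, hζe, inner_smul_right,
      inner_self_eq_norm_sq_to_K, hζ]
    simp
  rw [e1, e2]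
  calc _ ≤ ‖ζ‖ * ‖π y ζ‖ := norm_inner_le_norm _ _
    _ ≤ ‖ζ‖ * (‖π y‖ * ‖ζ‖) :=
      mul_le_mul_of_nonneg_left (ContinuousLinearMap.le_opNorm _ _) (norm_nonneg _)
    _ = ‖π y‖ := by rw [hζ]; ring
    _ ≤ ‖y‖ := NonUnitalStarAlgHom.norm_apply_le π y

end Sys

theorem denseRange_cyclic {A : Type*} [Ring A] [StarRing A] [Algebra ℂ A] [StarModule ℂ A]
    (π : A →⋆ₐ[ℂ] (H →L[ℂ] H)) (hπ : Irr π) {ζ : H} (hζ : ‖ζ‖ = 1) (f : A →ₗ[ℂ] H)
    (hf : ∀ a, f a = π a ζ) : DenseRange f := by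
  have h := hπ (LinearMap.range f).topologicalClosure (Submodule.isClosed_topologicalClosure _) (by
    intro a v hv
    have h1 : Set.MapsTo (π a) (LinearMap.range f : Set H) (LinearMap.range f : Set H) := by
      rintro _ ⟨b, rfl⟩
      exact ⟨a * b, by rw [hf, hf, rep_mul]⟩
    exact h1.closure (π a).continuous hv)
  rcases h with h | h
  · exfalso
    have : ζ ∈ (LinearMap.range f).topologicalClosure :=
      Submodule.le_topologicalClosure _ ⟨1, by rw [hf, map_one]; rfl⟩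
    rw [h, Submodule.mem_bot] at this
    rw [this, norm_zero] at hζ
    exact zero_ne_one hζ
  · exact Submodule.dense_iff_topologicalClosure_eq_top.mpr h

theorem equiv_of_state {A : Type*} [Ring A] [StarRing A] [Algebra ℂ A] [StarModule ℂ A]
    {H₁ : Type*} [NormedAddCommGroup H₁] [InnerProductSpace ℂ H₁] [CompleteSpace H₁]
    {H₂ : Type*} [NormedAddCommGroup H₂] [InnerProductSpace ℂ H₂] [CompleteSpace H₂]
    (π₁ : A →⋆ₐ[ℂ] (H₁ →L[ℂ] H₁)) (π₂ : A →⋆ₐ[ℂ] (H₂ →L[ℂ] H₂)) (h₁ : Irr π₁) (h₂ : Irr π₂)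
    {ζ₁ : H₁} {ζ₂ : H₂} (hζ₁ : ‖ζ₁‖ = 1) (hζ₂ : ‖ζ₂‖ = 1)
    (h : ∀ a, ⟪ζ₁, π₁ a ζ₁⟫_ℂ = ⟪ζ₂, π₂ a ζ₂⟫_ℂ) :
    ∃ U : H₁ ≃ₗᵢ[ℂ] H₂, ∀ a x, U (π₁ a x) = π₂ a (U x) := by
  let f₁ : A →ₗ[ℂ] H₁ :=
    { toFun := fun a => π₁ a ζ₁
      map_add' := by intro a b; simp
      map_smul' := by intro c a; simp }
  let f₂ : A →ₗ[ℂ] H₂ :=
    { toFun := fun a => π₂ a ζ₂
      map_add' := by intro a b; simp
      map_smul' := by intro c a; simp }
  have d₁ : DenseRange f₁ := denseRange_cyclic π₁ h₁ hζ₁ f₁ fun _ => rfl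
  have d₂ : DenseRange f₂ := denseRange_cyclic π₂ h₂ hζ₂ f₂ fun _ => rfl
  have hn : ∀ a, ‖f₂ (LinearEquiv.refl ℂ A a)‖ = ‖f₁ a‖ := by
    intro a
    show ‖π₂ a ζ₂‖ = ‖π₁ a ζ₁‖
    rw [@norm_eq_sqrt_re_inner ℂ, @norm_eq_sqrt_re_inner ℂ _ _ _ _ (π₁ a ζ₁), inner_rep_left,
      inner_rep_left, ← rep_mul, ← rep_mul, h]
  refine ⟨(LinearEquiv.refl ℂ A).extendOfIsometry f₁ f₂ d₁ d₂ hn, fun a x => ?_⟩
  have hU : ∀ b, (LinearEquiv.refl ℂ A).extendOfIsometry f₁ f₂ d₁ d₂ hn (π₁ b ζ₁) = π₂ b ζ₂ :=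
    fun b => LinearEquiv.extendOfIsometry_eq (LinearEquiv.refl ℂ A) f₁ f₂ d₁ d₂ hn b
  refine d₁.induction_on x (isClosed_eq (by fun_prop) (by fun_prop)) fun b => ?_
  show _ = π₂ a ((LinearEquiv.refl ℂ A).extendOfIsometry f₁ f₂ d₁ d₂ hn (π₁ b ζ₁))
  rw [hU, ← rep_mul, ← hU, rep_mul]
  rfl

theorem Sys.unique_irrep (S : Sys D) {ι : D →⋆ₐ[ℂ] (H₀ →L[ℂ] H₀)} {C : Set (H₀ →L[ℂ] H₀)}
    (hι : S.Small ι) (h1 : 1 ∈ C) (hC : Maximal (S.Fam ι) C)
    {H₁ : Type*} [NormedAddCommGroup H₁] [InnerProductSpace ℂ H₁] [CompleteSpace H₁]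
    {H₂ : Type*} [NormedAddCommGroup H₂] [InnerProductSpace ℂ H₂] [CompleteSpace H₂]
    [Nontrivial H₁] [Nontrivial H₂]
    (π₁ : Sys.Alg ι C →⋆ₐ[ℂ] (H₁ →L[ℂ] H₁)) (π₂ : Sys.Alg ι C →⋆ₐ[ℂ] (H₂ →L[ℂ] H₂))
    (h₁ : Irr π₁) (h₂ : Irr π₂) :
    ∃ U : H₁ ≃ₗᵢ[ℂ] H₂, ∀ a x, U (π₁ a x) = π₂ a (U x) := by
  obtain ⟨ζ₁, hζ₁, he₁⟩ := S.exists_fixed hι hC π₁ h₁
  obtain ⟨ζ₂, hζ₂, he₂⟩ := S.exists_fixed hι hC π₂ h₂
  refine equiv_of_state π₁ π₂ h₁ h₂ hζ₁ hζ₂ fun a => ?_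
  refine eq_of_forall_dist_le fun ε hε => ?_
  obtain ⟨k, c, hk⟩ := S.exc_Alg ι h1 hC.prop a a.2 (ε / 2) (by positivity)
  have a1 := (S.state_approx π₁ hζ₁ he₁ a k c).trans hk
  have a2 := (S.state_approx π₂ hζ₂ he₂ a k c).trans hk
  rw [← dist_eq_norm] at a1 a2
  have := dist_triangle_right ⟪ζ₁, π₁ a ζ₁⟫_ℂ ⟪ζ₂, π₂ a ζ₂⟫_ℂ c
  linarith

end Vale.Agent.P070
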